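import Mathlib

/-!
Definitions for the `ℓ¹`-Bass conjecture.
-/

namespace Vale.Agent.Lib.H15

/-- Convolution of functions on a group: `(a * b)(g) = ∑_h a(h) b(h⁻¹ g)`. -/
noncomputable def conv {G : Type*} [Group G] (a b : G → ℂ) (g : G) : ℂ :=
  ∑' h : G, a h * b (h⁻¹ * g)

/-- `e` is an idempotent `q × q` matrix over the Banach algebra `ℓ¹(G)`: all entries are
absolutely summable functions on `G`, and `e * e = e` (matrix product, entries multiplied by
convolution). -/
def IsEllOneIdempotent {G : Type*} [Group G] {q : ℕ}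
    (e : Matrix (Fin q) (Fin q) (G → ℂ)) : Prop :=
  (∀ i j, Summable fun g => ‖e i j g‖) ∧
    ∀ i j g, e i j g = ∑ k, conv (e i k) (e k j) g

/-- The coefficient of the Hattori-Stallings trace of `e` at the conjugacy class `C`. -/
noncomputable def tau {G : Type*} [Group G] {q : ℕ}
    (e : Matrix (Fin q) (Fin q) (G → ℂ)) (C : ConjClasses G) : ℂ :=
  ∑' g : C.carrier, ∑ i, e i i (g : G)

/-- The statement of the `ℓ¹`-Bass conjecture for the group `G`: every idempotent matrix over
`ℓ¹(G)` has only finitely many non-zero trace coefficients, all of them at conjugacy classes of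
elements of finite order. -/
def EllOneBass (G : Type*) [Group G] : Prop :=
  ∀ (q : ℕ) (e : Matrix (Fin q) (Fin q) (G → ℂ)), IsEllOneIdempotent e →
    ∃ F : Finset (ConjClasses G), (∀ C ∈ F, ∀ g ∈ C.carrier, IsOfFinOrder g) ∧
      ∀ C, C ∉ F → tau e C = 0

/-- `g` has positive translation length on the (pseudo)metric space `X`. -/
def HasPositiveTranslation {G : Type*} [Group G] (X : Type*) [PseudoMetricSpace X]
    [MulAction G X] (g : G) : Prop :=
  ∃ x : X, ∃ c : ℝ, 0 < c ∧ ∀ n : ℕ, c * n ≤ dist x (g ^ n • x)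

/-- The semi-parallelogram law of Bruhat and Tits, valid in every `CAT(0)` space. -/
def SatisfiesCN (X : Type*) [PseudoMetricSpace X] : Prop :=
  ∀ x y : X, ∃ m : X, ∀ z : X,
    dist z m ^ 2 ≤ (dist z x ^ 2 + dist z y ^ 2) / 2 - dist x y ^ 2 / 4

/-- The four point inequality of nonpositive curvature (roundness two): the sum of the squares of
the diagonals of a quadrilateral is at most the sum of the squares of its sides.  It holds in
every `CAT(0)` space and is inherited by subsets. -/
def SatisfiesFourPoint (X : Type*) [PseudoMetricSpace X] : Prop :=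
  ∀ x y z w : X, dist x z ^ 2 + dist y w ^ 2 ≤
    dist x y ^ 2 + dist y z ^ 2 + dist z w ^ 2 + dist w x ^ 2

/-- Bounded real functions. -/
def boundedFun (Z : Type*) : Submodule ℝ (Z → ℝ) where
  carrier := {f | ∃ K : ℝ, ∀ z, |f z| ≤ K}
  add_mem' := by
    rintro f f' ⟨K, hK⟩ ⟨K', hK'⟩
    exact ⟨K + K', fun z => (abs_add_le _ _).trans (add_le_add (hK z) (hK' z))⟩
  zero_mem' := ⟨0, fun z => by simp⟩
  smul_mem' := by
    rintro c f ⟨K, hK⟩
    refine ⟨|c| * K, fun z => ?_⟩
    rw [Pi.smul_apply, smul_eq_mul, abs_mul]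
    exact mul_le_mul_of_nonneg_left (hK z) (abs_nonneg c)

/-- Amenability of a discrete group: there is a left invariant mean on the bounded real
functions. -/
def IsAmenableGroup (Z : Type*) [Group Z] : Prop :=
  ∃ m : boundedFun Z →ₗ[ℝ] ℝ,
    (∀ f : boundedFun Z, (∀ z, 0 ≤ f.1 z) → 0 ≤ m f) ∧
    (∀ f : boundedFun Z, (∀ z, f.1 z = 1) → m f = 1) ∧
    ∀ (k : Z) (f f' : boundedFun Z), (∀ z, f'.1 z = f.1 (k * z)) → m f' = m f

/-- A translation function for `g`: a real function on `G` whose differences under right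
multiplication by any fixed element are bounded, on which the centralizer of `g` acts from the
left by translations, and on which `g` itself acts by a non-zero translation. -/
def HasTranslationFunction {G : Type*} [Group G] (g : G) : Prop :=
  ∃ B : G → ℝ, (∀ s, ∃ K : ℝ, ∀ p, |B (p * s) - B p| ≤ K) ∧
    (∀ h ∈ Subgroup.centralizer {g}, ∃ c : ℝ, ∀ p, B (h * p) - B p = c) ∧
    B g ≠ B 1

end Vale.Agent.Lib.H15
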