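import Vale.Agent.Lib.H15.Tr

/-!
The vanishing criterion: conjugating a left convolution idempotent by the multiplication by
`exp (i θ B)`.
-/

namespace Vale.Agent.Lib.H15

open Filter Topology

set_option linter.unusedSectionVars false

variable {G : Type*} [Group G] {M : Type*} [NormedRing M] [NormedAlgebra ℂ M] [CompleteSpace M]

/-- the twisted kernel -/
noncomputable def twist (g : G) (f : G → M) (hf : Summable fun x => ‖f x‖) (B : G → ℝ)
    (hB : ∀ h ∈ Subgroup.centralizer {g}, ∃ c, ∀ p, B (h * p) - B p = c) (θ : ℝ) :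
    Ker (Zc g) M where
  toFun s t := Complex.exp (θ * (B s⁻¹ - B t⁻¹) * Complex.I) • f (s * t⁻¹)
  inv' z hz s t := by
    have h1 : s * z * (t * z)⁻¹ = s * t⁻¹ := by group
    obtain ⟨c, hc⟩ := hB z⁻¹ (inv_mem hz)
    have h2 := hc s⁻¹
    have h3 := hc t⁻¹
    rw [h1]
    congr 3
    have h4 : B (s * z)⁻¹ - B (t * z)⁻¹ = B s⁻¹ - B t⁻¹ := by
      rw [mul_inv_rev, mul_inv_rev]
      linarith
    rw [← Complex.ofReal_sub, ← Complex.ofReal_sub, h4]
  dom' := ⟨fun x => ‖f x‖, hf, fun s t => by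
    rw [norm_smul]
    have : ‖Complex.exp (θ * (B s⁻¹ - B t⁻¹) * Complex.I)‖ = 1 := by
      rw [← Complex.ofReal_sub, ← Complex.ofReal_mul]
      exact Complex.norm_exp_ofReal_mul_I _
    rw [this, one_mul]⟩

theorem twist_idem (g : G) (f : G → M) (hf : Summable fun x => ‖f x‖) (B : G → ℝ)
    (hB : ∀ h ∈ Subgroup.centralizer {g}, ∃ c, ∀ p, B (h * p) - B p = c) (θ : ℝ)
    (hi : ∀ x, f x = ∑' h, f h * f (h⁻¹ * x)) :
    twist g f hf B hB θ * twist g f hf B hB θ = twist g f hf B hB θ := by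
  apply Ker.ext_fun
  intro s t
  rw [Ker.mul_fun]
  simp only [twist]
  have h1 : ∀ u : G, (Complex.exp (θ * (B s⁻¹ - B u⁻¹) * Complex.I) • f (s * u⁻¹)) *
      (Complex.exp (θ * (B u⁻¹ - B t⁻¹) * Complex.I) • f (u * t⁻¹)) =
      Complex.exp (θ * (B s⁻¹ - B t⁻¹) * Complex.I) • (f (s * u⁻¹) * f (u * t⁻¹)) := by
    intro u
    rw [smul_mul_smul_comm, ← Complex.exp_add]
    congr 2
    ring
  simp_rw [h1]
  have hs : Summable (fun u : G => f (s * u⁻¹) * f (u * t⁻¹)) := by
    refine Summable.of_norm_bounded (summable_slice hf hf (fun _ => norm_nonneg _)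
      (fun _ => norm_nonneg _) s t) (fun u => norm_mul_le _ _)
  rw [hs.tsum_const_smul]
  congr 1
  rw [hi (s * t⁻¹)]
  let φ : G ≃ G := (Equiv.inv G).trans (Equiv.mulLeft s)
  rw [← φ.tsum_eq (fun h => f h * f (h⁻¹ * (s * t⁻¹)))]
  apply tsum_congr
  intro u
  simp [φ, mul_assoc]

theorem Lam_twist (g : G) (f : G → M) (hf : Summable fun x => ‖f x‖) (B : G → ℝ)
    (hB : ∀ h ∈ Subgroup.centralizer {g}, ∃ c, ∀ p, B (h * p) - B p = c) (θ : ℝ)
    (tr : M →L[ℂ] ℂ) :
    Lam tr (twist g f hf B hB θ) =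
      Complex.exp (θ * (B g⁻¹ - B 1) * Complex.I) * ∑' x : Cl g, tr (f x.1) := by
  rw [Lam, ← tsum_mul_left]
  apply tsum_congr
  intro x
  simp only [twist]
  have h1 : x.1 * rep x * (rep x)⁻¹ = x.1 := by group
  obtain ⟨c, hc⟩ := hB g⁻¹ (inv_mem (self_mem_Zc g))
  have h2 : B (x.1 * rep x)⁻¹ - B (rep x)⁻¹ = B g⁻¹ - B 1 := by
    rw [mul_rep, mul_inv_rev, hc, ← hc 1, mul_one]
  rw [h1, map_smul, smul_eq_mul, ← Complex.ofReal_sub, h2, Complex.ofReal_sub]

/-- The abstract criterion. -/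
theorem tsum_eq_zero_of_translation (g : G) (f : G → M) (hf : Summable fun x => ‖f x‖)
    (hi : ∀ x, f x = ∑' h, f h * f (h⁻¹ * x)) (B : G → ℝ)
    (hB1 : ∀ s, ∃ K, ∀ p, |B (p * s) - B p| ≤ K)
    (hB : ∀ h ∈ Subgroup.centralizer {g}, ∃ c, ∀ p, B (h * p) - B p = c)
    (hB3 : B g ≠ B 1) (tr : M →L[ℂ] ℂ) (htr : ∀ a b, tr (a * b) = tr (b * a)) :
    ∑' x : Cl g, tr (f x.1) = 0 := by
  choose w hw using hB1
  -- the translation number
  have hc0 : B g⁻¹ - B 1 ≠ 0 := by
    obtain ⟨c, hc⟩ := hB g⁻¹ (inv_mem (self_mem_Zc g))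
    have h1 := hc 1
    have h2 := hc g
    rw [inv_mul_cancel] at h2
    rw [mul_one] at h1
    intro h
    apply hB3
    rw [h] at h1
    rw [← h1] at h2
    linarith
  set c : ℝ := B g⁻¹ - B 1 with hc
  -- the masses
  let mass : ℕ → G → ℝ := fun n a =>
    min 2 (|1 / (|c| * ((n : ℝ) + 1))| * |w a⁻¹|) * ‖f a‖
  have hlim : Tendsto (fun n => ∑' a, mass n a) atTop (𝓝 (∑' _ : G, (0 : ℝ))) := by
    refine tendsto_tsum_of_dominated_convergence (bound := fun a => 2 * ‖f a‖) (hf.mul_left 2)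
      ?_ ?_
    · intro a
      have h1 : Tendsto (fun n : ℕ => |1 / (|c| * ((n : ℝ) + 1))| * |w a⁻¹|) atTop (𝓝 0) := by
        have h2 : Tendsto (fun n : ℕ => 1 / (|c| * ((n : ℝ) + 1))) atTop (𝓝 0) := by
          have h3 : Tendsto (fun n : ℕ => 1 / ((n : ℝ) + 1)) atTop (𝓝 0) :=
            tendsto_one_div_add_atTop_nhds_zero_nat
          have h4 := h3.const_mul (1 / |c|)
          rw [mul_zero] at h4
          refine h4.congr (fun n => ?_)
          rw [one_div_mul_one_div]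
        have h5 := (h2.abs).mul_const (|w a⁻¹|)
        simpa using h5
      have h6 : Tendsto (fun n : ℕ => min 2 (|1 / (|c| * ((n : ℝ) + 1))| * |w a⁻¹|)) atTop
          (𝓝 (min 2 0)) := tendsto_const_nhds.min h1
      have h7 := h6.mul_const ‖f a‖
      rw [min_eq_right (by norm_num : (0 : ℝ) ≤ 2), zero_mul] at h7
      exact h7
    · refine Eventually.of_forall (fun n a => ?_)
      have h8 : 0 ≤ mass n a := by
        refine mul_nonneg (le_min (by norm_num) ?_) (norm_nonneg _)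
        exact mul_nonneg (abs_nonneg _) (abs_nonneg _)
      rw [Real.norm_of_nonneg h8]
      exact mul_le_mul_of_nonneg_right (min_le_left _ _) (norm_nonneg _)
  rw [tsum_zero] at hlim
  have hev : ∀ᶠ n in atTop, ∑' a, mass n a < 1 / 2 := hlim.eventually (gt_mem_nhds (by norm_num))
  obtain ⟨n, hn⟩ := hev.exists
  set θ : ℝ := 1 / (|c| * ((n : ℝ) + 1)) with hθ
  have hcpos : 0 < |c| := abs_pos.2 hc0
  have hθpos : 0 < θ := by positivity
  -- compare
  have hmaj : IsMaj ((twist g f hf B hB θ - twist g f hf B hB 0).toFun) (mass n) := by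
    refine ⟨?_, fun s t => ?_⟩
    · refine Summable.of_nonneg_of_le (fun a => ?_) (fun a => ?_) (hf.mul_left 2)
      · refine mul_nonneg (le_min (by norm_num) ?_) (norm_nonneg _)
        exact mul_nonneg (abs_nonneg _) (abs_nonneg _)
      · exact mul_le_mul_of_nonneg_right (min_le_left _ _) (norm_nonneg _)
    · have h1 : (twist g f hf B hB θ - twist g f hf B hB 0).toFun s t =
          (Complex.exp (((θ * (B s⁻¹ - B t⁻¹) : ℝ) : ℂ) * Complex.I) - 1) • f (s * t⁻¹) := by
        rw [sub_eq_add_neg, Ker.add_fun, Ker.neg_fun, sub_smul, one_smul]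
        simp only [twist]
        push_cast
        simp [sub_eq_add_neg]
      rw [h1, norm_smul]
      refine mul_le_mul_of_nonneg_right (le_min ?_ ?_) (norm_nonneg _)
      · refine (norm_sub_le _ _).trans ?_
        rw [Complex.norm_exp_ofReal_mul_I, norm_one]
        norm_num
      · have h2 : ‖Complex.exp (((θ * (B s⁻¹ - B t⁻¹) : ℝ) : ℂ) * Complex.I) - 1‖ ≤
            |θ * (B s⁻¹ - B t⁻¹)| := by
          have := Real.norm_exp_I_mul_ofReal_sub_one_le (x := θ * (B s⁻¹ - B t⁻¹))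
          rw [mul_comm Complex.I] at this
          simpa [Real.norm_eq_abs] using this
        refine h2.trans ?_
        rw [abs_mul]
        refine mul_le_mul_of_nonneg_left ?_ (abs_nonneg _)
        have h3 := hw (s * t⁻¹)⁻¹ t⁻¹
        have h4 : t⁻¹ * (s * t⁻¹)⁻¹ = s⁻¹ := by group
        rw [h4] at h3
        exact h3.trans (le_abs_self _)
  have hBd : (twist g f hf B hB θ - twist g f hf B hB 0).Bd (1 / 2) := ⟨mass n, hmaj, hn.le⟩
  have heq := Lam_eq_of_idem tr htr _ _ (twist_idem g f hf B hB θ hi)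
    (twist_idem g f hf B hB 0 hi) (by norm_num) hBd
  rw [Lam_twist, Lam_twist] at heq
  simp only [Complex.ofReal_zero, zero_mul, Complex.exp_zero, one_mul] at heq
  have hne : Complex.exp (θ * (B g⁻¹ - B 1) * Complex.I) ≠ 1 := by
    intro h
    rw [Complex.exp_eq_one_iff] at h
    obtain ⟨k, hk⟩ := h
    have h1 : ((θ * c : ℝ) : ℂ) = ((k * (2 * Real.pi) : ℝ) : ℂ) := by
      have hI : Complex.I ≠ 0 := Complex.I_ne_zero
      apply mul_right_cancel₀ hI
      push_cast
      rw [hc]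
      push_cast
      rw [hk]
      ring
    have h2 : θ * c = k * (2 * Real.pi) := by exact_mod_cast h1
    have h3 : |θ * c| = 1 / ((n : ℝ) + 1) := by
      rw [abs_mul, abs_of_pos hθpos, hθ]
      field_simp
    have h4 : |θ * c| ≤ 1 := by
      rw [h3, div_le_one (by positivity)]
      have : (0 : ℝ) ≤ n := Nat.cast_nonneg n
      linarith
    have h5 : 0 < |θ * c| := by
      rw [h3]
      positivity
    have h6 : k ≠ 0 := by
      rintro rfl
      rw [h2] at h5
      simp at h5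
    have h7 : (1 : ℝ) ≤ |(k : ℝ)| := by
      have : (1 : ℤ) ≤ |k| := Int.one_le_abs h6
      exact_mod_cast this
    have h8 : |θ * c| = |(k : ℝ)| * (2 * Real.pi) := by
      rw [h2, abs_mul, abs_of_pos (by positivity : (0 : ℝ) < 2 * Real.pi)]
    have h9 := Real.pi_gt_three
    nlinarith
  have h10 : (Complex.exp (θ * (B g⁻¹ - B 1) * Complex.I) - 1) *
      ∑' x : Cl g, tr (f x.1) = 0 := by
    rw [sub_mul, one_mul, heq, sub_self]
  rcases mul_eq_zero.1 h10 with h | h
  · exact absurd (sub_eq_zero.1 h) hne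
  · exact h

end Vale.Agent.Lib.H15
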