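import Vale.Agent.Lib.H15.BassDefs

/-!
Translation functions from isometric actions.
-/

namespace Vale.Agent.Lib.H15

open Filter Topology

set_option linter.unusedSectionVars false

/-- limit along a fixed free ultrafilter -/
noncomputable def ulim (a : ℕ → ℝ) : ℝ := limUnder (hyperfilter ℕ : Filter ℕ) a

theorem tendsto_ulim {a : ℕ → ℝ} {K : ℝ} (h : ∀ n, |a n| ≤ K) :
    Tendsto a (hyperfilter ℕ : Filter ℕ) (𝓝 (ulim a)) := by
  have hc : IsCompact (Set.Icc (-K) K) := isCompact_Icc
  have hle : ((hyperfilter ℕ).map a : Filter ℝ) ≤ 𝓟 (Set.Icc (-K) K) := by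
    rw [le_principal_iff, Ultrafilter.coe_map, mem_map]
    exact Filter.Eventually.of_forall (fun n => abs_le.1 (h n))
  obtain ⟨x, _, hx⟩ := hc.ultrafilter_le_nhds _ hle
  have ht : Tendsto a (hyperfilter ℕ : Filter ℕ) (𝓝 x) := hx
  rw [ulim, ht.limUnder_eq]
  exact ht

theorem ulim_eq {a : ℕ → ℝ} {x : ℝ} (h : Tendsto a atTop (𝓝 x)) : ulim a = x := by
  have : Tendsto a (hyperfilter ℕ : Filter ℕ) (𝓝 x) := h.mono_left Nat.hyperfilter_le_atTop
  exact this.limUnder_eq

theorem ulim_add {a b : ℕ → ℝ} {K L : ℝ} (ha : ∀ n, |a n| ≤ K) (hb : ∀ n, |b n| ≤ L) :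
    ulim (fun n => a n + b n) = ulim a + ulim b :=
  ((tendsto_ulim ha).add (tendsto_ulim hb)).limUnder_eq

theorem abs_ulim_le {a : ℕ → ℝ} {K : ℝ} (h : ∀ n, |a n| ≤ K) : |ulim a| ≤ K :=
  le_of_tendsto' (tendsto_ulim h).abs h

theorem ulim_le_of_tendsto {a b : ℕ → ℝ} {K x : ℝ} (h : ∀ n, |a n| ≤ K)
    (hab : ∀ n, a n ≤ b n) (hb : Tendsto b atTop (𝓝 x)) : ulim a ≤ x := by
  have h2 : Tendsto b (hyperfilter ℕ : Filter ℕ) (𝓝 x) := hb.mono_left Nat.hyperfilter_le_atTop
  exact le_of_tendsto_of_tendsto' (tendsto_ulim h) h2 hab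

variable {G : Type*} [Group G] {X : Type*} [PseudoMetricSpace X] [MulAction G X]
  [IsIsometricSMul G X]

/-- average difference of distances to the orbit of `y` -/
noncomputable def avg (g : G) (x x' y : X) (N : ℕ) : ℝ :=
  ((N : ℝ) + 1)⁻¹ * ∑ n ∈ Finset.range (N + 1), (dist x (g ^ n • y) - dist x' (g ^ n • y))

theorem abs_avg_le (g : G) (x x' y : X) (N : ℕ) : |avg g x x' y N| ≤ dist x x' := by
  rw [avg, abs_mul, abs_of_pos (by positivity : (0 : ℝ) < ((N : ℝ) + 1)⁻¹)]
  have h1 : |∑ n ∈ Finset.range (N + 1), (dist x (g ^ n • y) - dist x' (g ^ n • y))| ≤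
      ∑ n ∈ Finset.range (N + 1), dist x x' :=
    (Finset.abs_sum_le_sum_abs _ _).trans (Finset.sum_le_sum fun n _ => abs_dist_sub_le _ _ _)
  rw [Finset.sum_const, Finset.card_range, nsmul_eq_mul] at h1
  push_cast at h1
  calc ((N : ℝ) + 1)⁻¹ * |∑ n ∈ Finset.range (N + 1), (dist x (g ^ n • y) - dist x' (g ^ n • y))|
      ≤ ((N : ℝ) + 1)⁻¹ * (((N : ℝ) + 1) * dist x x') := by gcongr
    _ = dist x x' := by
      have : ((N : ℝ) + 1) ≠ 0 := by positivity
      field_simp

/-- mean difference of distances to the forward orbit of `y` -/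
noncomputable def Phi (g : G) (x x' y : X) : ℝ := ulim (avg g x x' y)

theorem abs_Phi_le (g : G) (x x' y : X) : |Phi g x x' y| ≤ dist x x' :=
  abs_ulim_le (abs_avg_le g x x' y)

theorem Phi_add (g : G) (x x' x'' y : X) : Phi g x x' y + Phi g x' x'' y = Phi g x x'' y := by
  rw [Phi, Phi, Phi, ← ulim_add (abs_avg_le g x x' y) (abs_avg_le g x' x'' y)]
  congr 1
  funext N
  rw [avg, avg, avg, ← mul_add, ← Finset.sum_add_distrib]
  congr 1
  apply Finset.sum_congr rfl
  intro n _
  ring

theorem Phi_smul (g h : G) (hh : g * h = h * g) (x x' y : X) :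
    Phi g (h • x) (h • x') (h • y) = Phi g x x' y := by
  rw [Phi, Phi]
  congr 1
  funext N
  rw [avg, avg]
  congr 1
  apply Finset.sum_congr rfl
  intro n _
  have hc : Commute g h := hh
  have h1 : g ^ n • h • y = h • g ^ n • y := by
    rw [smul_smul, smul_smul, (hc.pow_left n).eq]
  rw [h1, dist_smul, dist_smul]

theorem Phi_self_le (g : G) (o : X) (c : ℝ) (hd : ∀ n : ℕ, c * n ≤ dist o (g ^ n • o))
    (x y : X) : Phi g (g • x) x y ≤ -c := by
  have hsum : ∀ N : ℕ, ∑ n ∈ Finset.range (N + 1), (dist (g • x) (g ^ n • y) - dist x (g ^ n • y))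
      = dist (g • x) y - dist x (g ^ N • y) := by
    intro N
    induction N with
    | zero => simp
    | succ N ih =>
      rw [Finset.sum_range_succ, ih]
      have h1 : dist (g • x) (g ^ (N + 1) • y) = dist x (g ^ N • y) := by
        rw [pow_succ', mul_smul, dist_smul]
      rw [h1]
      ring
  have hlow : ∀ N : ℕ, c * N - dist x o - dist y o ≤ dist x (g ^ N • y) := by
    intro N
    have h1 := hd N
    have h2 : dist o (g ^ N • o) ≤ dist o x + dist x (g ^ N • y) + dist (g ^ N • y) (g ^ N • o) :=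
      dist_triangle4 _ _ _ _
    rw [dist_smul, dist_comm o x] at h2
    linarith
  set K : ℝ := dist (g • x) y + dist x o + dist y o with hK
  refine ulim_le_of_tendsto (abs_avg_le g (g • x) x y)
    (b := fun N : ℕ => -c + (K + c) * ((N : ℝ) + 1)⁻¹) (fun N => ?_) ?_
  · rw [avg, hsum]
    have h1 := hlow N
    have hpos : (0 : ℝ) < ((N : ℝ) + 1)⁻¹ := by positivity
    have hne : ((N : ℝ) + 1) ≠ 0 := by positivity
    calc ((N : ℝ) + 1)⁻¹ * (dist (g • x) y - dist x (g ^ N • y))
        ≤ ((N : ℝ) + 1)⁻¹ * (K - c * N) := by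
          refine mul_le_mul_of_nonneg_left ?_ hpos.le
          rw [hK]
          linarith
      _ = -c + (K + c) * ((N : ℝ) + 1)⁻¹ := by
          field_simp
          ring
  · have h1 : Tendsto (fun N : ℕ => ((N : ℝ) + 1)⁻¹) atTop (𝓝 0) := by
      have := tendsto_one_div_add_atTop_nhds_zero_nat (𝕜 := ℝ)
      simpa [one_div] using this
    have h2 := (h1.const_mul (K + c)).const_add (-c)
    simpa using h2

/-- The four point inequality. -/
theorem four_point_of_CN {X : Type*} [PseudoMetricSpace X] (hX : SatisfiesCN X) :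
    SatisfiesFourPoint X := by
  intro x y z w
  obtain ⟨m, hm⟩ := hX x z
  have h1 := hm y
  have h2 := hm w
  have h3 : dist y w ≤ dist y m + dist w m := by
    rw [dist_comm w m]
    exact dist_triangle _ _ _
  have h4 : dist y w ^ 2 ≤ 2 * dist y m ^ 2 + 2 * dist w m ^ 2 := by
    have h5 : 0 ≤ dist y w := dist_nonneg
    nlinarith [sq_nonneg (dist y m - dist w m)]
  rw [dist_comm y x] at h1
  rw [dist_comm w z] at h2
  nlinarith

/-- In a space satisfying the four point inequality the mean difference does not depend on the orbit. -/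
theorem Phi_indep (hX : SatisfiesFourPoint X) (g : G) (o : X) (c : ℝ) (hc : 0 < c)
    (hd : ∀ n : ℕ, c * n ≤ dist o (g ^ n • o)) (x x' y y' : X) :
    Phi g x x' y = Phi g x x' y' := by
  -- the difference sequence
  let a : ℕ → ℝ := fun n => (dist x (g ^ n • y) - dist x' (g ^ n • y)) -
    (dist x (g ^ n • y') - dist x' (g ^ n • y'))
  set δ : ℝ := dist x x' with hδ
  set κ : ℝ := dist y y' with hκ
  have hlow : ∀ n : ℕ, c * n - dist x o - dist y o ≤ dist x (g ^ n • y) := by
    intro n
    have h1 := hd n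
    have h2 : dist o (g ^ n • o) ≤ dist o x + dist x (g ^ n • y) + dist (g ^ n • y) (g ^ n • o) :=
      dist_triangle4 _ _ _ _
    rw [dist_smul, dist_comm o x] at h2
    linarith
  have hbound : ∀ n : ℕ, |a n| * (c * n - dist x o - dist y o) ≤ (δ + κ) ^ 2 := by
    intro n
    set u := g ^ n • y
    set v := g ^ n • y'
    have huv : dist u v = κ := dist_smul _ _ _
    have h1 := hX x u v x'
    have h2 := hX x v u x'
    have t1 : |dist x v - dist x u| ≤ κ := by
      rw [← huv, dist_comm u v, dist_comm x v, dist_comm x u]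
      exact abs_dist_sub_le v u x
    have t2 : |dist x' v - dist x' u| ≤ κ := by
      rw [← huv, dist_comm u v, dist_comm x' v, dist_comm x' u]
      exact abs_dist_sub_le v u x'
    have t3 : |dist x v - dist x' v| ≤ δ := abs_dist_sub_le x x' v
    have t4 : |dist x u - dist x' u| ≤ δ := abs_dist_sub_le x x' u
    have hδ0 : 0 ≤ δ := dist_nonneg
    have hκ0 : 0 ≤ κ := dist_nonneg
    have hlow' : c * n - dist x o - dist y o ≤ dist x u := hlow n
    have e1 : dist v x' = dist x' v := dist_comm _ _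
    have e2 : dist u x' = dist x' u := dist_comm _ _
    have e3 : dist x' x = δ := dist_comm _ _
    have e5 : dist v u = κ := by rw [dist_comm, huv]
    rw [e1, e2, e3, huv] at h1
    rw [e1, e2, e3, e5] at h2
    have ha : a n = (dist x u - dist x' u) - (dist x v - dist x' v) := rfl
    rw [ha]
    have hA : 0 ≤ dist x v := dist_nonneg
    have hB : 0 ≤ dist x u := dist_nonneg
    generalize dist x v = A at *
    generalize dist x u = B at *
    generalize dist x' v = A' at *
    generalize dist x' u = B' at *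
    have key : |(B - B' - (A - A')) * (A + B)| ≤ (δ + κ) ^ 2 := by
      have k1 : (B - B' - (A - A')) * (A + B) =
          -(A ^ 2 - B ^ 2 - A' ^ 2 + B' ^ 2) + (A' - B') * ((A - A') + (B - B')) := by ring
      rw [k1]
      have k2 : |A ^ 2 - B ^ 2 - A' ^ 2 + B' ^ 2| ≤ δ ^ 2 + κ ^ 2 := by
        rw [abs_le]
        constructor <;> linarith
      have k3 : |(A - A') + (B - B')| ≤ 2 * δ := by
        refine (abs_add_le _ _).trans ?_
        linarith
      have k4 : |(A' - B') * ((A - A') + (B - B'))| ≤ κ * (2 * δ) := by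
        rw [abs_mul]
        exact mul_le_mul t2 k3 (abs_nonneg _) hκ0
      refine (abs_add_le _ _).trans ?_
      rw [abs_neg]
      nlinarith
    rw [abs_mul, abs_of_nonneg (add_nonneg hA hB)] at key
    refine le_trans (mul_le_mul_of_nonneg_left ?_ (abs_nonneg _)) key
    linarith
  have ha0 : Tendsto a atTop (𝓝 0) := by
    have hlin : Tendsto (fun n : ℕ => c * (n : ℝ) - dist x o - dist y o) atTop atTop := by
      have h1 : Tendsto (fun n : ℕ => c * (n : ℝ)) atTop atTop :=
        tendsto_natCast_atTop_atTop.const_mul_atTop hc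
      have h2 := tendsto_atTop_add_const_right atTop (-(dist x o) - dist y o) h1
      refine h2.congr (fun n => ?_)
      ring
    have hdiv : Tendsto (fun n : ℕ => (δ + κ) ^ 2 / (c * (n : ℝ) - dist x o - dist y o)) atTop
        (𝓝 0) := hlin.const_div_atTop _
    refine squeeze_zero_norm' ?_ hdiv
    filter_upwards [hlin.eventually_gt_atTop 0] with n hn
    rw [Real.norm_eq_abs, le_div_iff₀ hn]
    exact hbound n
  have hces : Tendsto (fun N : ℕ => ((N : ℝ) + 1)⁻¹ * ∑ n ∈ Finset.range (N + 1), a n) atTop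
      (𝓝 0) := by
    have h1 := ha0.cesaro.comp (tendsto_add_atTop_nat 1)
    refine h1.congr (fun N => ?_)
    simp [Function.comp]
  have hsplit : avg g x x' y = fun N => avg g x x' y' N +
      ((N : ℝ) + 1)⁻¹ * ∑ n ∈ Finset.range (N + 1), a n := by
    funext N
    rw [avg, avg, ← mul_add, ← Finset.sum_add_distrib]
    congr 1
    apply Finset.sum_congr rfl
    intro n _
    show _ = _ + ((dist x (g ^ n • y) - dist x' (g ^ n • y)) -
      (dist x (g ^ n • y') - dist x' (g ^ n • y')))
    ring
  have hrb : ∀ N : ℕ, |((N : ℝ) + 1)⁻¹ * ∑ n ∈ Finset.range (N + 1), a n| ≤ 2 * δ := by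
    intro N
    have h1 : ((N : ℝ) + 1)⁻¹ * ∑ n ∈ Finset.range (N + 1), a n =
        avg g x x' y N - avg g x x' y' N := by
      rw [hsplit]
      ring
    rw [h1]
    refine (abs_sub _ _).trans ?_
    have h2 := abs_avg_le g x x' y N
    have h3 := abs_avg_le g x x' y' N
    linarith
  rw [Phi, Phi, hsplit, ulim_add (abs_avg_le g x x' y') hrb, ulim_eq hces, add_zero]

/-- Case of a space satisfying the four point inequality. -/
theorem hasTranslationFunction_of_fourPoint (hX : SatisfiesFourPoint X) (g : G)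
    (hg : HasPositiveTranslation X g) : HasTranslationFunction g := by
  obtain ⟨o, c, hc, hd⟩ := hg
  have hindep : ∀ x x' y y' : X, Phi g x x' y = Phi g x x' y' := Phi_indep hX g o c hc hd
  refine ⟨fun p => Phi g (p • o) o o, fun s => ⟨dist (s • o) o, fun p => ?_⟩, fun h hh => ?_, ?_⟩
  · have h1 : Phi g ((p * s) • o) o o - Phi g (p • o) o o = Phi g ((p * s) • o) (p • o) o := by
      rw [← Phi_add g ((p * s) • o) (p • o) o o]
      ring
    rw [h1]
    refine (abs_Phi_le _ _ _ _).trans ?_
    rw [mul_smul, dist_smul]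
  · have hcomm : g * h = h * g := by
      rw [Subgroup.mem_centralizer_singleton_iff] at hh
      exact hh.symm
    refine ⟨Phi g (h • o) o o, fun p => ?_⟩
    have h1 : Phi g ((h * p) • o) o o = Phi g (h • p • o) (h • o) (h • o) + Phi g (h • o) o o := by
      rw [hindep (h • p • o) (h • o) (h • o) o, mul_smul]
      exact (Phi_add _ _ _ _ _).symm
    show Phi g ((h * p) • o) o o - Phi g (p • o) o o = _
    rw [h1, Phi_smul g h hcomm]
    ring
  · have h1 : Phi g ((1 : G) • o) o o = 0 := by
      have := abs_Phi_le g ((1 : G) • o) o o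
      rw [one_smul, dist_self] at this
      rw [one_smul]
      exact abs_eq_zero.1 (le_antisymm this (abs_nonneg _))
    show Phi g (g • o) o o ≠ Phi g ((1 : G) • o) o o
    rw [h1]
    have h2 := Phi_self_le g o c hd o o
    intro h3
    rw [h3] at h2
    linarith

/-- Case of an amenable centralizer. -/
theorem hasTranslationFunction_of_amenable (g : G)
    (hZ : IsAmenableGroup (Subgroup.centralizer {g} : Subgroup G))
    (hg : HasPositiveTranslation X g) : HasTranslationFunction g := by
  obtain ⟨o, c, hc, hd⟩ := hg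
  obtain ⟨m, hm0, hm1, hminv⟩ := hZ
  -- bounded functions on the centralizer
  let F : X → X → boundedFun (Subgroup.centralizer {g} : Subgroup G) := fun x x' =>
    ⟨fun h => Phi g x x' ((h : G) • o), ⟨dist x x', fun h => abs_Phi_le _ _ _ _⟩⟩
  have hFadd : ∀ x x' x'' : X, m (F x x') + m (F x' x'') = m (F x x'') := by
    intro x x' x''
    rw [← map_add]
    congr 1
    apply Subtype.ext
    funext h
    exact Phi_add _ _ _ _ _
  have hmle : ∀ (f : boundedFun (Subgroup.centralizer {g} : Subgroup G)) (K : ℝ),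
      (∀ z, f.1 z ≤ K) → m f ≤ K := by
    intro f K hK
    let u : boundedFun (Subgroup.centralizer {g} : Subgroup G) :=
      ⟨fun _ => 1, ⟨1, fun _ => by simp⟩⟩
    have h1 : 0 ≤ m (K • u - f) := hm0 _ (fun z => by
      show 0 ≤ K * 1 - f.1 z
      have := hK z
      linarith)
    rw [map_sub, map_smul, hm1 u (fun _ => rfl), smul_eq_mul, mul_one] at h1
    linarith
  have hmabs : ∀ (f : boundedFun (Subgroup.centralizer {g} : Subgroup G)) (K : ℝ),
      (∀ z, |f.1 z| ≤ K) → |m f| ≤ K := by
    intro f K hK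
    rw [abs_le]
    constructor
    · have h1 := hmle (-f) K (fun z => by
        show -(f.1 z) ≤ K
        have := abs_le.1 (hK z)
        linarith)
      rw [map_neg] at h1
      linarith
    · exact hmle f K (fun z => (le_abs_self _).trans (hK z))
  refine ⟨fun p => m (F (p • o) o), fun s => ⟨dist (s • o) o, fun p => ?_⟩, fun h hh => ?_, ?_⟩
  · have h1 : m (F ((p * s) • o) o) - m (F (p • o) o) = m (F ((p * s) • o) (p • o)) := by
      rw [← hFadd ((p * s) • o) (p • o) o]
      ring
    rw [h1]
    refine (hmabs _ (dist ((p * s) • o) (p • o)) (fun z => abs_Phi_le _ _ _ _)).trans ?_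
    rw [mul_smul, dist_smul]
  · have hcomm : g * h = h * g := by
      rw [Subgroup.mem_centralizer_singleton_iff] at hh
      exact hh.symm
    refine ⟨m (F (h • o) o), fun p => ?_⟩
    have h1 : m (F ((h * p) • o) (h • o)) = m (F (p • o) o) := by
      refine hminv ⟨h⁻¹, inv_mem hh⟩ _ _ (fun z => ?_)
      show Phi g ((h * p) • o) (h • o) ((z : G) • o) = Phi g (p • o) o ((h⁻¹ * (z : G)) • o)
      rw [← Phi_smul g h hcomm (p • o) o]
      rw [mul_smul, mul_smul, smul_inv_smul]
    show m (F ((h * p) • o) o) - m (F (p • o) o) = _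
    rw [← hFadd ((h * p) • o) (h • o) o, h1]
    ring
  · have h1 : m (F ((1 : G) • o) o) = 0 := by
      have := hmabs (F ((1 : G) • o) o) 0 (fun z => by
        have h2 := abs_Phi_le g ((1 : G) • o) o ((z : G) • o)
        rw [one_smul, dist_self] at h2
        show |Phi g ((1 : G) • o) o ((z : G) • o)| ≤ 0
        rw [one_smul]
        exact h2)
      exact abs_eq_zero.1 (le_antisymm this (abs_nonneg _))
    show m (F (g • o) o) ≠ m (F ((1 : G) • o) o)
    rw [h1]
    have h2 : m (F (g • o) o) ≤ -c := hmle _ _ (fun z => Phi_self_le g o c hd o _)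
    intro h3
    rw [h3] at h2
    linarith

end Vale.Agent.Lib.H15
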