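import Vale.Agent.Lib.H15.BassDefs
import Vale.Agent.Lib.H15.Crit
import Vale.Agent.Lib.H15.Geom

/-!
Application to idempotent matrices over `ℓ¹(G)`.
-/

namespace Vale.Agent.Lib.H15

open Filter Topology

attribute [local instance] Matrix.linftyOpNormedRing Matrix.linftyOpNormedAlgebra

variable {G : Type*} [Group G] {q : ℕ}

/-- the matrix valued function attached to a matrix of functions -/
def flat (e : Matrix (Fin q) (Fin q) (G → ℂ)) (g : G) : Matrix (Fin q) (Fin q) ℂ :=
  Matrix.of fun i j => e i j g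

theorem norm_le_sum (A : Matrix (Fin q) (Fin q) ℂ) : ‖A‖ ≤ ∑ i, ∑ j, ‖A i j‖ := by
  rw [Matrix.linfty_opNorm_def]
  have h0 : 0 ≤ ∑ i, ∑ j, ‖A i j‖ :=
    Finset.sum_nonneg fun i _ => Finset.sum_nonneg fun j _ => norm_nonneg _
  have h1 : (Finset.univ.sup fun i : Fin q => ∑ j : Fin q, ‖A i j‖₊) ≤ ∑ i, ∑ j, ‖A i j‖₊ := by
    apply Finset.sup_le
    intro i _
    exact Finset.single_le_sum (f := fun i => ∑ j : Fin q, ‖A i j‖₊)
      (fun _ _ => bot_le) (Finset.mem_univ i)
  have h2 : ((Finset.univ.sup fun i : Fin q => ∑ j : Fin q, ‖A i j‖₊ : NNReal) : ℝ) ≤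
      ((∑ i, ∑ j, ‖A i j‖₊ : NNReal) : ℝ) := NNReal.coe_le_coe.2 h1
  refine h2.trans (le_of_eq ?_)
  push_cast
  rfl

theorem summable_flat {e : Matrix (Fin q) (Fin q) (G → ℂ)}
    (h : ∀ i j, Summable fun g => ‖e i j g‖) : Summable fun g => ‖flat e g‖ := by
  refine Summable.of_nonneg_of_le (fun _ => norm_nonneg _) (fun g => norm_le_sum _) ?_
  exact summable_sum fun i _ => summable_sum fun j _ => h i j

/-- entry as a continuous linear map -/
noncomputable def entryL (i j : Fin q) : Matrix (Fin q) (Fin q) ℂ →L[ℂ] ℂ :=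
  LinearMap.toContinuousLinearMap (Matrix.entryLinearMap ℂ ℂ i j)

/-- trace as a continuous linear map -/
noncomputable def trL : Matrix (Fin q) (Fin q) ℂ →L[ℂ] ℂ :=
  LinearMap.toContinuousLinearMap (Matrix.traceLinearMap (Fin q) ℂ ℂ)

theorem flat_idem {e : Matrix (Fin q) (Fin q) (G → ℂ)} (h : IsEllOneIdempotent e) (x : G) :
    flat e x = ∑' y, flat e y * flat e (y⁻¹ * x) := by
  have hs := summable_flat h.1
  have hsum : Summable fun y => flat e y * flat e (y⁻¹ * x) := by
    have h1 := summable_slice hs hs (fun _ => norm_nonneg _) (fun _ => norm_nonneg _) x 1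
    have h2 : Summable fun y : G => ‖flat e y‖ * ‖flat e (y⁻¹ * x)‖ := by
      let φ : G ≃ G := (Equiv.inv G).trans (Equiv.mulLeft x)
      rw [← φ.summable_iff]
      refine h1.congr (fun u => ?_)
      simp [φ, Function.comp]
    exact Summable.of_norm_bounded h2 (fun y => norm_mul_le _ _)
  ext i j
  have h3 : (∑' y, flat e y * flat e (y⁻¹ * x)) i j =
      ∑' y, (flat e y * flat e (y⁻¹ * x)) i j := by
    have := (entryL i j).map_tsum hsum
    exact this
  rw [h3]
  show e i j x = _
  rw [h.2 i j x]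
  have h4 : ∀ y, (flat e y * flat e (y⁻¹ * x)) i j = ∑ k, e i k y * e k j (y⁻¹ * x) :=
    fun y => Matrix.mul_apply
  simp_rw [h4]
  rw [Summable.tsum_finsetSum]
  · rfl
  · intro k _
    have h1 := summable_slice (h.1 i k) (h.1 k j) (fun _ => norm_nonneg _)
      (fun _ => norm_nonneg _) x 1
    have h2 : Summable fun y : G => ‖e i k y‖ * ‖e k j (y⁻¹ * x)‖ := by
      let φ : G ≃ G := (Equiv.inv G).trans (Equiv.mulLeft x)
      rw [← φ.summable_iff]
      refine h1.congr (fun u => ?_)
      simp [φ, Function.comp]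
    exact Summable.of_norm_bounded h2 (fun y => norm_mul_le _ _)

/-- The criterion for idempotent matrices over `ℓ¹(G)`. -/
theorem tau_eq_zero_of_translation (g : G) (hg : HasTranslationFunction g)
    (e : Matrix (Fin q) (Fin q) (G → ℂ)) (he : IsEllOneIdempotent e) :
    tau e (ConjClasses.mk g) = 0 := by
  obtain ⟨B, hB1, hB2, hB3⟩ := hg
  have h := tsum_eq_zero_of_translation g (flat e) (summable_flat he.1) (flat_idem he) B
    hB1 hB2 hB3 trL (fun a b => Matrix.trace_mul_comm a b)
  rw [tau]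
  let φ : Cl g ≃ (ConjClasses.mk g).carrier := Equiv.subtypeEquivRight (fun x => by
    rw [ConjClasses.mem_carrier_iff_mk_eq, ConjClasses.mk_eq_mk_iff_isConj, isConj_comm])
  rw [← φ.tsum_eq]
  exact h

/-- The two geometric cases. -/
theorem tau_eq_zero_of_action {X : Type*} [PseudoMetricSpace X] [MulAction G X]
    [IsIsometricSMul G X] (g : G) (hg : HasPositiveTranslation X g)
    (hX : SatisfiesFourPoint X ∨ IsAmenableGroup (Subgroup.centralizer {g} : Subgroup G))
    (e : Matrix (Fin q) (Fin q) (G → ℂ)) (he : IsEllOneIdempotent e) :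
    tau e (ConjClasses.mk g) = 0 := by
  rcases hX with hX | hZ
  · exact tau_eq_zero_of_translation g (hasTranslationFunction_of_fourPoint hX g hg) e he
  · exact tau_eq_zero_of_translation g (hasTranslationFunction_of_amenable g hZ hg) e he

/-- The full conjecture for suitable groups. -/
theorem ellOneBass_of_translation
    (hfin : {C : ConjClasses G | ∀ g ∈ C.carrier, IsOfFinOrder g}.Finite)
    (hgood : ∀ g : G, ¬ IsOfFinOrder g → HasTranslationFunction g) : EllOneBass G := by
  intro q e he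
  refine ⟨hfin.toFinset, fun C hC => by simpa using hC, fun C hC => ?_⟩
  obtain ⟨g, rfl⟩ := ConjClasses.exists_rep C
  refine tau_eq_zero_of_translation g (hgood g ?_) e he
  intro hg
  apply hC
  rw [Set.Finite.mem_toFinset, Set.mem_ofPred_eq]
  intro x hx
  rw [ConjClasses.mem_carrier_iff_mk_eq, ConjClasses.mk_eq_mk_iff_isConj] at hx
  obtain ⟨c, hc⟩ := isConj_iff.1 hx
  rw [← hc] at hg
  have h2 : x = c⁻¹ * (c * x * c⁻¹) * c := by group
  rw [isOfFinOrder_iff_pow_eq_one] at hg ⊢
  obtain ⟨n, hn, hn'⟩ := hg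
  refine ⟨n, hn, ?_⟩
  rw [conj_pow] at hn'
  have h3 : c⁻¹ * (c * x ^ n * c⁻¹) * c = c⁻¹ * 1 * c := by rw [hn']
  simpa [mul_assoc] using h3

end Vale.Agent.Lib.H15
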