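import Mathlib

/-!
Kernels on a group, right invariant under a subgroup and dominated by a summable function of
`s * t⁻¹`.  They form a ring under kernel composition.
-/

namespace Vale.Agent.Lib.H15

open Filter Topology

set_option linter.unusedSectionVars false

variable {G : Type*} [Group G]

/-- Summability of the product majorant. -/
theorem summable_prod_maj {m n : G → ℝ} (hm : Summable m) (hn : Summable n)
    (hm0 : ∀ a, 0 ≤ m a) (hn0 : ∀ a, 0 ≤ n a) :
    Summable (fun p : G × G => m p.1 * n p.2) :=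
  hm.mul_of_nonneg hn (fun a => hm0 a) (fun a => hn0 a)

theorem summable_slice {m n : G → ℝ} (hm : Summable m) (hn : Summable n)
    (hm0 : ∀ a, 0 ≤ m a) (hn0 : ∀ a, 0 ≤ n a) (s t : G) :
    Summable (fun u : G => m (s * u⁻¹) * n (u * t⁻¹)) := by
  have h := summable_prod_maj hm hn hm0 hn0
  have hinj : Function.Injective (fun u : G => ((s * u⁻¹, u * t⁻¹) : G × G)) := by
    intro u v huv
    simp only [Prod.mk.injEq] at huv
    exact mul_right_cancel huv.2
  exact h.comp_injective hinj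

/-- The convolution of two majorants. -/
noncomputable def majConv (m n : G → ℝ) (a : G) : ℝ := ∑' c : G, m c * n (c⁻¹ * a)

/-- the shear equivalence -/
def shear : G × G ≃ G × G where
  toFun p := (p.2, p.2⁻¹ * p.1)
  invFun p := (p.1 * p.2, p.1)
  left_inv p := by simp
  right_inv p := by simp

theorem summable_shear {m n : G → ℝ} (hm : Summable m) (hn : Summable n)
    (hm0 : ∀ a, 0 ≤ m a) (hn0 : ∀ a, 0 ≤ n a) :
    Summable (fun p : G × G => m p.2 * n (p.2⁻¹ * p.1)) := by
  have h := summable_prod_maj hm hn hm0 hn0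
  exact (shear.summable_iff (f := fun p : G × G => m p.1 * n p.2)).2 h

theorem summable_majConv {m n : G → ℝ} (hm : Summable m) (hn : Summable n)
    (hm0 : ∀ a, 0 ≤ m a) (hn0 : ∀ a, 0 ≤ n a) : Summable (majConv m n) :=
  (summable_shear hm hn hm0 hn0).prod

theorem tsum_majConv {m n : G → ℝ} (hm : Summable m) (hn : Summable n)
    (hm0 : ∀ a, 0 ≤ m a) (hn0 : ∀ a, 0 ≤ n a) :
    ∑' a, majConv m n a = (∑' a, m a) * ∑' a, n a := by
  have h1 := (summable_shear hm hn hm0 hn0).tsum_prod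
  have h2 : ∑' p : G × G, m p.2 * n (p.2⁻¹ * p.1) = ∑' p : G × G, m p.1 * n p.2 :=
    shear.tsum_eq (fun p : G × G => m p.1 * n p.2)
  have h3 := (summable_prod_maj hm hn hm0 hn0).tsum_prod
  have h4 : ∑' (b : G) (c : G), m b * n c = (∑' a, m a) * ∑' a, n a := by
    simp_rw [tsum_mul_left]
    rw [tsum_mul_right]
  calc ∑' a, majConv m n a = ∑' (a : G) (c : G), m c * n (c⁻¹ * a) := rfl
    _ = ∑' p : G × G, m p.2 * n (p.2⁻¹ * p.1) := h1.symm
    _ = ∑' p : G × G, m p.1 * n p.2 := h2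
    _ = _ := by rw [h3]; exact h4

theorem majConv_nonneg {m n : G → ℝ} (hm0 : ∀ a, 0 ≤ m a) (hn0 : ∀ a, 0 ≤ n a) (a : G) :
    0 ≤ majConv m n a := tsum_nonneg fun _ => mul_nonneg (hm0 _) (hn0 _)

theorem tsum_slice (m n : G → ℝ) (s t : G) :
    ∑' u : G, m (s * u⁻¹) * n (u * t⁻¹) = majConv m n (s * t⁻¹) := by
  let φ : G ≃ G := (Equiv.inv G).trans (Equiv.mulLeft s)
  have h := φ.tsum_eq (fun c : G => m c * n (c⁻¹ * (s * t⁻¹)))
  rw [majConv, ← h]
  apply tsum_congr
  intro u
  simp [φ, mul_assoc]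

/-- kernels -/
@[ext]
structure Ker (Z : Subgroup G) (M : Type*) [NormedRing M] where
  toFun : G → G → M
  inv' : ∀ z ∈ Z, ∀ s t, toFun (s * z) (t * z) = toFun s t
  dom' : ∃ m : G → ℝ, Summable m ∧ ∀ s t, ‖toFun s t‖ ≤ m (s * t⁻¹)

variable {Z : Subgroup G} {M : Type*} [NormedRing M]

/-- `m` is a summable majorant for the kernel function `k`. -/
def IsMaj (k : G → G → M) (m : G → ℝ) : Prop :=
  Summable m ∧ ∀ s t, ‖k s t‖ ≤ m (s * t⁻¹)

theorem IsMaj.nonneg {k : G → G → M} {m : G → ℝ} (h : IsMaj k m) (a : G) : 0 ≤ m a := by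
  have := h.2 a 1
  simp only [inv_one, mul_one] at this
  exact (norm_nonneg _).trans this

theorem IsMaj.add {k l : G → G → M} {m n : G → ℝ} (hk : IsMaj k m) (hl : IsMaj l n) :
    IsMaj (fun s t => k s t + l s t) (fun a => m a + n a) :=
  ⟨hk.1.add hl.1, fun s t => (norm_add_le _ _).trans (add_le_add (hk.2 s t) (hl.2 s t))⟩

theorem IsMaj.neg {k : G → G → M} {m : G → ℝ} (hk : IsMaj k m) :
    IsMaj (fun s t => - k s t) m :=
  ⟨hk.1, fun s t => by rw [norm_neg]; exact hk.2 s t⟩

theorem IsMaj.summable_norm_mul {k l : G → G → M} {m n : G → ℝ} (hk : IsMaj k m)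
    (hl : IsMaj l n) (s t : G) : Summable (fun u => ‖k s u * l u t‖) := by
  refine Summable.of_nonneg_of_le (fun _ => norm_nonneg _) (fun u => ?_)
    (summable_slice hk.1 hl.1 hk.nonneg hl.nonneg s t)
  exact (norm_mul_le _ _).trans (mul_le_mul (hk.2 s u) (hl.2 u t) (norm_nonneg _) (hk.nonneg _))

variable [CompleteSpace M]

theorem IsMaj.summable_mul {k l : G → G → M} {m n : G → ℝ} (hk : IsMaj k m)
    (hl : IsMaj l n) (s t : G) : Summable (fun u => k s u * l u t) :=
  (hk.summable_norm_mul hl s t).of_norm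

theorem IsMaj.mul {k l : G → G → M} {m n : G → ℝ} (hk : IsMaj k m)
    (hl : IsMaj l n) : IsMaj (fun s t => ∑' u, k s u * l u t) (majConv m n) := by
  refine ⟨summable_majConv hk.1 hl.1 hk.nonneg hl.nonneg, fun s t => ?_⟩
  rw [← tsum_slice]
  refine tsum_of_norm_bounded (summable_slice hk.1 hl.1 hk.nonneg hl.nonneg s t).hasSum
    (fun u => ?_)
  exact (norm_mul_le _ _).trans (mul_le_mul (hk.2 s u) (hl.2 u t) (norm_nonneg _) (hk.nonneg _))

theorem IsMaj.assoc {k l r : G → G → M} {m n o : G → ℝ} (hk : IsMaj k m)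
    (hl : IsMaj l n) (hr : IsMaj r o) (s t : G) :
    ∑' v, (∑' u, k s u * l u v) * r v t = ∑' u, k s u * ∑' v, l u v * r v t := by
  have h1 : ∀ v, (∑' u, k s u * l u v) * r v t = ∑' u, k s u * l u v * r v t := fun v =>
    ((hk.summable_mul hl s v).tsum_mul_right _).symm
  have h2 : ∀ u, k s u * ∑' v, l u v * r v t = ∑' v, k s u * (l u v * r v t) := fun u =>
    ((hl.summable_mul hr u t).tsum_mul_left _).symm
  simp_rw [h1, h2]
  have hS : Summable (Function.uncurry (fun v u => k s u * l u v * r v t)) := by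
    have h3 := (summable_prod_maj hk.1 hl.1 hk.nonneg hl.nonneg)
    have h4 : Summable (fun p : (G × G) × G => (m p.1.1 * n p.1.2) * o p.2) :=
      h3.mul_of_nonneg hr.1 (fun p => mul_nonneg (hk.nonneg _) (hl.nonneg _)) hr.nonneg
    have hinj : Function.Injective
        (fun p : G × G => (((s * p.2⁻¹, p.2 * p.1⁻¹), p.1 * t⁻¹) : (G × G) × G)) := by
      rintro ⟨v, u⟩ ⟨v', u'⟩ huv
      simp only [Prod.mk.injEq] at huv
      obtain ⟨⟨h5, h6⟩, h7⟩ := huv
      have h8 : v = v' := mul_right_cancel h7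
      have h9 : u = u' := inv_injective (mul_left_cancel h5)
      rw [h8, h9]
    have h5 := h4.comp_injective hinj
    refine Summable.of_norm_bounded h5 ?_
    rintro ⟨v, u⟩
    simp only [Function.uncurry_apply_pair, Function.comp_apply]
    calc ‖k s u * l u v * r v t‖ ≤ ‖k s u * l u v‖ * ‖r v t‖ := norm_mul_le _ _
      _ ≤ (‖k s u‖ * ‖l u v‖) * ‖r v t‖ :=
        mul_le_mul_of_nonneg_right (norm_mul_le _ _) (norm_nonneg _)
      _ ≤ (m (s * u⁻¹) * n (u * v⁻¹)) * o (v * t⁻¹) := by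
        gcongr
        · exact mul_nonneg (hk.nonneg _) (hl.nonneg _)
        · exact hk.nonneg _
        · exact hk.2 _ _
        · exact hl.2 _ _
        · exact hr.2 _ _
  rw [← hS.tsum_comm]
  apply tsum_congr
  intro u
  apply tsum_congr
  intro v
  rw [mul_assoc]

namespace Ker

theorem ext_fun {K L : Ker Z M} (h : ∀ s t, K.toFun s t = L.toFun s t) : K = L := by
  ext s t
  exact h s t

theorem exists_maj (K : Ker Z M) : ∃ m, IsMaj K.toFun m := K.dom'

instance : Zero (Ker Z M) := ⟨⟨fun _ _ => 0, fun _ _ _ _ => rfl, ⟨fun _ => 0, summable_zero,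
  fun _ _ => by simp⟩⟩⟩

instance : Add (Ker Z M) := ⟨fun K L => ⟨fun s t => K.toFun s t + L.toFun s t,
  fun z hz s t => by rw [K.inv' z hz, L.inv' z hz], by
    obtain ⟨m, hm⟩ := K.exists_maj
    obtain ⟨n, hn⟩ := L.exists_maj
    exact ⟨_, hm.add hn⟩⟩⟩

instance : Neg (Ker Z M) := ⟨fun K => ⟨fun s t => - K.toFun s t,
  fun z hz s t => by rw [K.inv' z hz], by
    obtain ⟨m, hm⟩ := K.exists_maj
    exact ⟨_, hm.neg⟩⟩⟩

noncomputable instance : Mul (Ker Z M) := ⟨fun K L => ⟨fun s t => ∑' u, K.toFun s u * L.toFun u t,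
  fun z hz s t => by
    rw [← (Equiv.mulRight z).tsum_eq]
    apply tsum_congr
    intro u
    simp only [Equiv.coe_mulRight]
    rw [K.inv' z hz, L.inv' z hz], by
    obtain ⟨m, hm⟩ := K.exists_maj
    obtain ⟨n, hn⟩ := L.exists_maj
    exact ⟨_, hm.mul hn⟩⟩⟩

open Classical in
noncomputable instance : One (Ker Z M) := ⟨⟨fun s t => if s = t then 1 else 0,
  fun z hz s t => by simp, ⟨fun a => if a = 1 then ‖(1 : M)‖ else 0,
    summable_of_ne_finset_zero (s := {1}) (fun a ha => by
      simp only [Finset.mem_singleton] at ha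
      simp [ha]), fun s t => by
    by_cases h : s = t
    · simp [h]
    · have : ¬ (s * t⁻¹ = 1) := fun h' => h (mul_inv_eq_one.1 h')
      simp [h, this]⟩⟩⟩

@[simp] theorem zero_fun (s t : G) : (0 : Ker Z M).toFun s t = 0 := rfl
@[simp] theorem add_fun (K L : Ker Z M) (s t : G) :
    (K + L).toFun s t = K.toFun s t + L.toFun s t := rfl
@[simp] theorem neg_fun (K : Ker Z M) (s t : G) : (-K).toFun s t = - K.toFun s t := rfl
theorem mul_fun (K L : Ker Z M) (s t : G) :
    (K * L).toFun s t = ∑' u, K.toFun s u * L.toFun u t := rfl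
open Classical in
theorem one_fun (s t : G) : (1 : Ker Z M).toFun s t = if s = t then 1 else 0 := by
  show (if s = t then (1 : M) else 0) = _
  congr

theorem summable_mul_fun (K L : Ker Z M) (s t : G) :
    Summable (fun u => K.toFun s u * L.toFun u t) := by
  obtain ⟨m, hm⟩ := K.exists_maj
  obtain ⟨n, hn⟩ := L.exists_maj
  exact hm.summable_mul hn s t

noncomputable instance : Ring (Ker Z M) where
  add_assoc K L R := ext_fun fun s t => add_assoc _ _ _
  zero_add K := ext_fun fun s t => zero_add _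
  add_zero K := ext_fun fun s t => add_zero _
  add_comm K L := ext_fun fun s t => add_comm _ _
  neg_add_cancel K := ext_fun fun s t => neg_add_cancel _
  nsmul := nsmulRec
  zsmul := zsmulRec
  left_distrib K L R := ext_fun fun s t => by
    rw [mul_fun, add_fun, mul_fun, mul_fun, ← (summable_mul_fun K L s t).tsum_add
      (summable_mul_fun K R s t)]
    simp_rw [add_fun, mul_add]
  right_distrib K L R := ext_fun fun s t => by
    rw [mul_fun, add_fun, mul_fun, mul_fun, ← (summable_mul_fun K R s t).tsum_add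
      (summable_mul_fun L R s t)]
    simp_rw [add_fun, add_mul]
  zero_mul K := ext_fun fun s t => by rw [mul_fun]; simp
  mul_zero K := ext_fun fun s t => by rw [mul_fun]; simp
  mul_assoc K L R := ext_fun fun s t => by
    obtain ⟨m, hm⟩ := K.exists_maj
    obtain ⟨n, hn⟩ := L.exists_maj
    obtain ⟨o, ho⟩ := R.exists_maj
    exact hm.assoc hn ho s t
  one_mul K := ext_fun fun s t => by
    rw [mul_fun, tsum_eq_single s]
    · simp [one_fun]
    · intro u hu
      simp [one_fun, Ne.symm hu]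
  mul_one K := ext_fun fun s t => by
    rw [mul_fun, tsum_eq_single t]
    · simp [one_fun]
    · intro u hu
      simp [one_fun, hu]

/-- `K` is dominated by a summable function with total mass at most `r`. -/
def Bd (K : Ker Z M) (r : ℝ) : Prop := ∃ m, IsMaj K.toFun m ∧ ∑' a, m a ≤ r

theorem Bd.nonneg {K : Ker Z M} {r : ℝ} (h : K.Bd r) : 0 ≤ r := by
  obtain ⟨m, hm, hr⟩ := h
  exact (tsum_nonneg hm.nonneg).trans hr

theorem Bd.mul {K L : Ker Z M} {r r' : ℝ} (hK : K.Bd r) (hL : L.Bd r') : (K * L).Bd (r * r') := by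
  obtain ⟨m, hm, hr⟩ := hK
  obtain ⟨n, hn, hr'⟩ := hL
  refine ⟨_, hm.mul hn, ?_⟩
  rw [tsum_majConv hm.1 hn.1 hm.nonneg hn.nonneg]
  exact mul_le_mul hr hr' (tsum_nonneg hn.nonneg) ((tsum_nonneg hm.nonneg).trans hr)

end Ker

end Vale.Agent.Lib.H15
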