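import Vale.Agent.Lib.H15.BassMain

/-!
Translation functions and characters of centralizers dominated by length functions.
-/

namespace Vale.Agent.Lib.H15

/-- The real number `c h` depends additively on `h` in the centralizer of `g`, it is dominated by
a length function `ℓ` of the whole group (symmetric and subadditive), and `c g ≠ 0`. -/
def HasDominatedCharacter {G : Type*} [Group G] (g : G) : Prop :=
  ∃ (ℓ : G → ℝ) (c : G → ℝ), (∀ x, ℓ x⁻¹ = ℓ x) ∧ (∀ x y, ℓ (x * y) ≤ ℓ x + ℓ y) ∧
    (∀ h ∈ Subgroup.centralizer {g}, ∀ k ∈ Subgroup.centralizer {g}, c (h * k) = c h + c k) ∧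
    (∀ h ∈ Subgroup.centralizer {g}, |c h| ≤ ℓ h) ∧ c g ≠ 0

variable {G : Type*} [Group G]

theorem HasDominatedCharacter.hasTranslationFunction {g : G} (h : HasDominatedCharacter g) :
    HasTranslationFunction g := by
  obtain ⟨ℓ, c, hinv, hmul, hc, hle, hg⟩ := h
  have hgz : g ∈ Subgroup.centralizer {g} := by
    rw [Subgroup.mem_centralizer_singleton_iff]
  let Z := Subgroup.centralizer ({g} : Set G)
  let B : G → ℝ := fun p => ⨅ h : Z, (c h + ℓ ((h : G)⁻¹ * p))
  have hbdd : ∀ p, BddBelow (Set.range fun h : Z => c h + ℓ ((h : G)⁻¹ * p)) := by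
    intro p
    refine ⟨-ℓ p, ?_⟩
    rintro _ ⟨h, rfl⟩
    have h1 := hle h h.2
    have h2 := hmul ((h : G)⁻¹ * p) p⁻¹
    rw [hinv, mul_inv_cancel_right, hinv] at h2
    have h3 := neg_abs_le (c h)
    show -ℓ p ≤ c h + ℓ ((h : G)⁻¹ * p)
    linarith
  have hlip : ∀ p s, B (p * s) ≤ B p + ℓ s := by
    intro p s
    have : B (p * s) - ℓ s ≤ B p := by
      refine le_ciInf fun h => ?_
      have h1 : B (p * s) ≤ c h + ℓ ((h : G)⁻¹ * (p * s)) := ciInf_le (hbdd (p * s)) h
      have h2 := hmul ((h : G)⁻¹ * p) s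
      rw [mul_assoc] at h2
      linarith
    linarith
  have hequiv : ∀ k ∈ Z, ∀ p, B (k * p) ≤ c k + B p := by
    intro k hk p
    have : B (k * p) - c k ≤ B p := by
      refine le_ciInf fun h => ?_
      have h1 : B (k * p) ≤ c ((⟨k, hk⟩ * h : Z) : G) +
          ℓ (((⟨k, hk⟩ * h : Z) : G)⁻¹ * (k * p)) := ciInf_le (hbdd (k * p)) (⟨k, hk⟩ * h)
      have h2 : (((⟨k, hk⟩ * h : Z) : G)⁻¹ * (k * p)) = (h : G)⁻¹ * p := by
        simp [mul_assoc]
      have h3 : c ((⟨k, hk⟩ * h : Z) : G) = c k + c h := hc k hk h h.2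
      rw [h2, h3] at h1
      linarith
    linarith
  have hc1 : c 1 = 0 := by
    have := hc 1 (one_mem _) 1 (one_mem _)
    rw [mul_one] at this
    linarith
  have hcinv : ∀ k ∈ Z, c k⁻¹ = - c k := by
    intro k hk
    have := hc k hk k⁻¹ (inv_mem hk)
    rw [mul_inv_cancel, hc1] at this
    linarith
  have hequiv' : ∀ k ∈ Z, ∀ p, B (k * p) = c k + B p := by
    intro k hk p
    apply le_antisymm (hequiv k hk p)
    have := hequiv k⁻¹ (inv_mem hk) (k * p)
    rw [inv_mul_cancel_left, hcinv k hk] at this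
    linarith
  refine ⟨B, fun s => ⟨ℓ s, fun p => ?_⟩, fun h hh => ⟨c h, fun p => ?_⟩, ?_⟩
  · rw [abs_le]
    constructor
    · have := hlip (p * s) s⁻¹
      rw [mul_inv_cancel_right, hinv] at this
      linarith
    · linarith [hlip p s]
  · rw [hequiv' h hh p]
    ring
  · have := hequiv' g hgz 1
    rw [mul_one] at this
    intro h0
    apply hg
    linarith

theorem HasTranslationFunction.hasDominatedCharacter {g : G} (h : HasTranslationFunction g) :
    HasDominatedCharacter g := by
  obtain ⟨B, hB, hZ, hg⟩ := h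
  have hbdd : ∀ s, BddAbove (Set.range fun p : G => |B (p * s) - B p|) := by
    intro s
    obtain ⟨K, hK⟩ := hB s
    exact ⟨K, by rintro _ ⟨p, rfl⟩; exact hK p⟩
  have hle : ∀ p s, |B (p * s) - B p| ≤ ⨆ p : G, |B (p * s) - B p| := fun p s =>
    le_ciSup (hbdd s) p
  refine ⟨fun s => ⨆ p : G, |B (p * s) - B p|, fun h => B h - B 1, ?_, ?_, ?_, ?_, ?_⟩
  · intro x
    apply le_antisymm
    · refine ciSup_le fun p => ?_
      have := hle (p * x⁻¹) x
      rw [inv_mul_cancel_right, abs_sub_comm] at this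
      exact this
    · refine ciSup_le fun p => ?_
      have := hle (p * x) x⁻¹
      rw [mul_inv_cancel_right, abs_sub_comm] at this
      exact this
  · intro x y
    refine ciSup_le fun p => ?_
    have h1 := hle p x
    have h2 := hle (p * x) y
    have h3 : B (p * (x * y)) - B p = (B (p * x * y) - B (p * x)) + (B (p * x) - B p) := by
      rw [mul_assoc]
      ring
    rw [h3]
    exact (abs_add_le _ _).trans (by linarith)
  · intro h hh k hk
    obtain ⟨a, ha⟩ := hZ h hh
    have h1 := ha k
    have h2 := ha 1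
    rw [mul_one] at h2
    show B (h * k) - B 1 = B h - B 1 + (B k - B 1)
    linarith
  · intro h hh
    have := hle 1 h
    rw [one_mul] at this
    exact this
  · exact sub_ne_zero.2 hg

/-- The existence of a dominated character passes to preimages under homomorphisms. -/
theorem HasDominatedCharacter.comap {G' : Type*} [Group G'] (φ : G →* G') (g : G)
    (h : HasDominatedCharacter (φ g)) : HasDominatedCharacter g := by
  obtain ⟨ℓ, c, hinv, hmul, hc, hle, hg⟩ := h
  have hz : ∀ h ∈ Subgroup.centralizer ({g} : Set G), φ h ∈ Subgroup.centralizer {φ g} := by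
    intro h hh
    rw [Subgroup.mem_centralizer_singleton_iff] at hh ⊢
    rw [← map_mul, hh, map_mul]
  exact ⟨fun x => ℓ (φ x), fun x => c (φ x), fun x => by simp [hinv],
    fun x y => by simpa using hmul (φ x) (φ y),
    fun h hh k hk => by simpa using hc _ (hz h hh) _ (hz k hk),
    fun h hh => hle _ (hz h hh), hg⟩

end Vale.Agent.Lib.H15
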