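import Vale.Agent.Lib.H15.Length

/-!
Linear representations over fields with an absolute value.
-/

namespace Vale.Agent.Lib.H15

open Module

section norm

variable {K : Type*} [Field K] (v : AbsoluteValue K ℝ) {m n p : Type*} [Fintype m] [Fintype n]
  [Fintype p]

/-- sum of the absolute values of the entries -/
def entN (A : Matrix m n K) : ℝ := ∑ i, ∑ j, v (A i j)

theorem entN_nonneg (A : Matrix m n K) : 0 ≤ entN v A :=
  Finset.sum_nonneg fun _ _ => Finset.sum_nonneg fun _ _ => v.nonneg _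

theorem le_entN (A : Matrix m n K) (i : m) (j : n) : v (A i j) ≤ entN v A := by
  have h1 : v (A i j) ≤ ∑ j, v (A i j) :=
    Finset.single_le_sum (f := fun j => v (A i j)) (fun _ _ => v.nonneg _) (Finset.mem_univ j)
  exact h1.trans (Finset.single_le_sum (f := fun i => ∑ j, v (A i j))
    (fun _ _ => Finset.sum_nonneg fun _ _ => v.nonneg _) (Finset.mem_univ i))

theorem entN_mul (A : Matrix m n K) (B : Matrix n p K) :
    entN v (A * B) ≤ entN v A * entN v B := by
  have h1 : ∀ i k, v ((A * B) i k) ≤ ∑ j, v (A i j) * v (B j k) := by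
    intro i k
    rw [Matrix.mul_apply]
    refine (v.sum_le _ _).trans (le_of_eq ?_)
    exact Finset.sum_congr rfl fun j _ => v.map_mul _ _
  have h2 : ∀ j, ∑ k, v (B j k) ≤ entN v B := fun j =>
    Finset.single_le_sum (f := fun j => ∑ k, v (B j k))
      (fun _ _ => Finset.sum_nonneg fun _ _ => v.nonneg _) (Finset.mem_univ j)
  calc entN v (A * B) ≤ ∑ i, ∑ k, ∑ j, v (A i j) * v (B j k) :=
        Finset.sum_le_sum fun i _ => Finset.sum_le_sum fun k _ => h1 i k
    _ = ∑ i, ∑ j, v (A i j) * ∑ k, v (B j k) := by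
        refine Finset.sum_congr rfl fun i _ => ?_
        rw [Finset.sum_comm]
        exact Finset.sum_congr rfl fun j _ => by rw [Finset.mul_sum]
    _ ≤ ∑ i, ∑ j, v (A i j) * entN v B :=
        Finset.sum_le_sum fun i _ => Finset.sum_le_sum fun j _ =>
          mul_le_mul_of_nonneg_left (h2 j) (v.nonneg _)
    _ = entN v A * entN v B := by
        simp_rw [entN, Finset.sum_mul]

end norm

variable {G : Type*} [Group G] {K : Type*} [Field K] {n : ℕ}

theorem det_restrict_genEigenspace {V : Type*} [AddCommGroup V] [Module K V]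
    [FiniteDimensional K V] (f : End K V) (μ : K) :
    LinearMap.det (f.restrict (Module.End.mapsTo_maxGenEigenspace_of_comm (Commute.refl f) μ)) =
      μ ^ finrank K (f.maxGenEigenspace μ) := by
  set T : End K (f.maxGenEigenspace μ) :=
    f.restrict (Module.End.mapsTo_maxGenEigenspace_of_comm (Commute.refl f) μ) with hT
  have hN := Module.End.isNilpotent_restrict_maxGenEigenspace_sub_algebraMap f μ
  have h0 : (f - algebraMap K (End K V) μ).restrict
      (Module.End.mapsTo_maxGenEigenspace_of_comm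
        (Algebra.mul_sub_algebraMap_commutes f μ) μ) = T - μ • 1 := by
    ext1 x
    apply Subtype.ext
    rfl
  rw [h0] at hN
  have h1 := IsNilpotent.charpoly_eq_X_pow_finrank hN
  rw [LinearMap.charpoly_sub_smul] at h1
  have h3 : T.charpoly.eval 0 = (-μ) ^ finrank K (f.maxGenEigenspace μ) := by
    have h4 := congrArg (Polynomial.eval (-μ)) h1
    simpa using h4
  rw [LinearMap.det_eq_sign_charpoly_coeff, Polynomial.coeff_zero_eq_eval_zero, h3, ← mul_pow]
  simp

section rep

variable (v : AbsoluteValue K ℝ) (ρ : G →* GL (Fin n) K) (g : G) (μ : K)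

/-- the operator attached to a group element -/
noncomputable abbrev opr (h : G) : End K (Fin n → K) := Matrix.toLin' (ρ h).val

theorem opr_mul (h k : G) : opr ρ (h * k) = opr ρ h * opr ρ k := by
  simp [opr, Matrix.toLin'_mul, Module.End.mul_eq_comp]

theorem opr_one : opr ρ 1 = 1 := by
  simp [opr, Module.End.one_eq_id]

theorem commute_opr {h : G} (hh : h ∈ Subgroup.centralizer ({g} : Set G)) :
    Commute (opr ρ g) (opr ρ h) := by
  rw [Subgroup.mem_centralizer_singleton_iff] at hh
  rw [Commute, SemiconjBy, ← opr_mul, ← opr_mul, hh]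

/-- the generalized eigenspace -/
noncomputable abbrev Wsp : Submodule K (Fin n → K) := (opr ρ g).maxGenEigenspace μ

/-- a projection to the generalized eigenspace -/
noncomputable def prj : (Fin n → K) →ₗ[K] Wsp ρ g μ :=
  Classical.choose (LinearMap.exists_leftInverse_of_injective (Wsp ρ g μ).subtype
    (Submodule.ker_subtype _))

theorem prj_spec : prj ρ g μ ∘ₗ (Wsp ρ g μ).subtype = LinearMap.id :=
  Classical.choose_spec (LinearMap.exists_leftInverse_of_injective (Wsp ρ g μ).subtype
    (Submodule.ker_subtype _))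

theorem prj_coe (x : Wsp ρ g μ) : prj ρ g μ (x : Fin n → K) = x :=
  LinearMap.congr_fun (prj_spec ρ g μ) x

/-- compression to the generalized eigenspace -/
noncomputable def cmp (h : G) : End K (Wsp ρ g μ) :=
  prj ρ g μ ∘ₗ opr ρ h ∘ₗ (Wsp ρ g μ).subtype

theorem cmp_coe {h : G} (hh : h ∈ Subgroup.centralizer ({g} : Set G)) (x : Wsp ρ g μ) :
    ((cmp ρ g μ h x : Wsp ρ g μ) : Fin n → K) = opr ρ h x := by
  have h1 := Module.End.mapsTo_maxGenEigenspace_of_comm (commute_opr ρ g hh) μ x.2
  have h2 := prj_coe ρ g μ ⟨_, h1⟩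
  have h3 : cmp ρ g μ h x = prj ρ g μ (opr ρ h x) := rfl
  rw [h3]
  exact congrArg Subtype.val h2

theorem cmp_mul {h k : G} (hh : h ∈ Subgroup.centralizer ({g} : Set G))
    (hk : k ∈ Subgroup.centralizer ({g} : Set G)) :
    cmp ρ g μ (h * k) = cmp ρ g μ h * cmp ρ g μ k := by
  ext1 x
  apply Subtype.ext
  rw [cmp_coe ρ g μ (mul_mem hh hk), Module.End.mul_apply, cmp_coe ρ g μ hh, cmp_coe ρ g μ hk,
    opr_mul]
  rfl

theorem cmp_one : cmp ρ g μ 1 = 1 := by
  ext1 x
  apply Subtype.ext
  rw [cmp_coe ρ g μ (one_mem _), opr_one]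
  rfl

theorem cmp_pow {h : G} (hh : h ∈ Subgroup.centralizer ({g} : Set G)) (k : ℕ) :
    cmp ρ g μ (h ^ k) = cmp ρ g μ h ^ k := by
  induction k with
  | zero => simp [cmp_one]
  | succ k ih => rw [pow_succ, pow_succ, cmp_mul ρ g μ (pow_mem hh k) hh, ih]

theorem det_cmp_self : LinearMap.det (cmp ρ g μ g) = μ ^ finrank K (Wsp ρ g μ) := by
  rw [← det_restrict_genEigenspace (opr ρ g) μ]
  congr 1
  ext1 x
  apply Subtype.ext
  rw [cmp_coe ρ g μ (by rw [Subgroup.mem_centralizer_singleton_iff])]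
  rfl

theorem det_cmp_ne_zero {h : G} (hh : h ∈ Subgroup.centralizer ({g} : Set G)) :
    LinearMap.det (cmp ρ g μ h) ≠ 0 := by
  have h1 : LinearMap.det (cmp ρ g μ h) * LinearMap.det (cmp ρ g μ h⁻¹) = 1 := by
    rw [← map_mul, ← cmp_mul ρ g μ hh (inv_mem hh), mul_inv_cancel, cmp_one, map_one]
  exact left_ne_zero_of_mul_eq_one h1

/-- the determinant of a compression is bounded by a power of the size of the matrix -/
theorem det_cmp_le : ∃ C : ℝ, ∀ h : G, v (LinearMap.det (cmp ρ g μ h)) ≤
    C * entN v (ρ h).val ^ finrank K (Wsp ρ g μ) := by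
  let b := Module.finBasis K (Wsp ρ g μ)
  let e := Pi.basisFun K (Fin n)
  let P := LinearMap.toMatrix e b (prj ρ g μ)
  let Q := LinearMap.toMatrix b e (Wsp ρ g μ).subtype
  refine ⟨(Nat.factorial (finrank K (Wsp ρ g μ)) : ℝ) *
    (entN v P * entN v Q) ^ finrank K (Wsp ρ g μ), fun h => ?_⟩
  have h1 : LinearMap.toMatrix b b (cmp ρ g μ h) = P * ((ρ h).val * Q) := by
    rw [cmp, LinearMap.toMatrix_comp b e b, LinearMap.toMatrix_comp b e e]
    congr 2
    exact LinearMap.toMatrix'_toLin' _
  rw [← LinearMap.det_toMatrix b, h1]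
  have h2 : ∀ i j, v ((P * ((ρ h).val * Q)) i j) ≤ entN v P * (entN v (ρ h).val * entN v Q) :=
    fun i j => (le_entN v _ i j).trans ((entN_mul v _ _).trans
      (mul_le_mul_of_nonneg_left (entN_mul v _ _) (entN_nonneg v _)))
  have h3 := Matrix.det_le h2
  rw [Fintype.card_fin, nsmul_eq_mul] at h3
  refine h3.trans (le_of_eq ?_)
  ring

theorem exp_bound {C a b : ℝ} (hb : 0 < b) (h : ∀ k : ℕ, a ^ k ≤ C * b ^ k) :
    a ≤ b := by
  by_contra hab
  push Not at hab
  have h1 : 1 < a / b := (one_lt_div hb).2 hab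
  obtain ⟨k, hk⟩ := pow_unbounded_of_one_lt C h1
  have h2 := h k
  rw [div_pow] at hk
  rw [lt_div_iff₀ (pow_pos hb k)] at hk
  linarith

theorem entN_pos (h : G) [NeZero n] : 0 < entN v (ρ h).val := by
  have h1 : (1 : Matrix (Fin n) (Fin n) K) = (ρ h).val * (ρ h⁻¹).val := by
    rw [← Units.val_mul, ← map_mul, mul_inv_cancel, map_one, Units.val_one]
  have h2 : 1 ≤ entN v (1 : Matrix (Fin n) (Fin n) K) := by
    have := le_entN v (1 : Matrix (Fin n) (Fin n) K) 0 0
    simpa using this
  rw [h1] at h2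
  have h3 := h2.trans (entN_mul v _ _)
  rcases (entN_nonneg v (ρ h).val).lt_or_eq with h4 | h4
  · exact h4
  · rw [← h4] at h3
    linarith [zero_mul (entN v (ρ h⁻¹).val)]

theorem entN_pow_le (h : G) (k : ℕ) : entN v (ρ (h ^ (k + 1))).val ≤ entN v (ρ h).val ^ (k + 1) := by
  induction k with
  | zero => simp
  | succ k ih =>
    have h1 : (ρ (h ^ (k + 1 + 1))).val = (ρ (h ^ (k + 1))).val * (ρ h).val := by
      rw [pow_succ, map_mul, Units.val_mul]
    rw [h1, pow_succ (entN v (ρ h).val) (k + 1)]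
    exact (entN_mul v _ _).trans (mul_le_mul_of_nonneg_right ih (entN_nonneg v _))

theorem det_cmp_le' [NeZero n] {h : G} (hh : h ∈ Subgroup.centralizer ({g} : Set G)) :
    v (LinearMap.det (cmp ρ g μ h)) ≤ entN v (ρ h).val ^ finrank K (Wsp ρ g μ) := by
  obtain ⟨C, hC⟩ := det_cmp_le v ρ g μ
  have hN := entN_pos v ρ h
  have hC0 : 0 ≤ C := by
    have := hC 1
    by_contra hneg
    push Not at hneg
    have h1 : 0 < v (LinearMap.det (cmp ρ g μ 1)) := v.pos (det_cmp_ne_zero ρ g μ (one_mem _))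
    have h2 : C * entN v (ρ 1).val ^ finrank K (Wsp ρ g μ) ≤ 0 :=
      mul_nonpos_of_nonpos_of_nonneg hneg.le (pow_nonneg (entN_nonneg v _) _)
    linarith
  refine exp_bound (C := max C 1) (pow_pos hN _) (fun k => ?_)
  rcases k with _ | k
  · simp
  · rw [← map_pow, ← map_pow, ← cmp_pow ρ g μ hh]
    refine (hC _).trans ?_
    rw [← pow_mul, mul_comm (finrank K (Wsp ρ g μ)), pow_mul]
    exact mul_le_mul (le_max_left _ _)
      (pow_le_pow_left₀ (entN_nonneg v _) (entN_pow_le v ρ h k) _)
      (pow_nonneg (entN_nonneg v _) _) (le_trans hC0 (le_max_left _ _))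

/-- If `ρ g` has an eigenvalue of absolute value different from one then the centralizer of `g`
has a dominated character. -/
theorem hasDominatedCharacter_of_eigenvalue (hμ : (opr ρ g).HasEigenvalue μ) (hv : v μ ≠ 1) :
    HasDominatedCharacter g := by
  have hn : NeZero n := by
    refine ⟨fun h0 => ?_⟩
    subst h0
    obtain ⟨x, hx⟩ := hμ.exists_hasEigenvector
    exact hx.2 (Subsingleton.elim _ _)
  have hgz : g ∈ Subgroup.centralizer ({g} : Set G) := by
    rw [Subgroup.mem_centralizer_singleton_iff]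
  set d := finrank K (Wsp ρ g μ) with hd
  have hd0 : d ≠ 0 := by
    intro h0
    have h1 : Wsp ρ g μ = ⊥ := Submodule.finrank_eq_zero.1 h0
    obtain ⟨x, hx⟩ := hμ.exists_hasEigenvector
    have h2 : x ∈ Wsp ρ g μ := by
      have h3 : (opr ρ g).eigenspace μ ≤ (opr ρ g).maxGenEigenspace μ :=
        ((opr ρ g).genEigenspace μ).monotone le_top
      exact h3 hx.1
    rw [h1, Submodule.mem_bot] at h2
    exact hx.2 h2
  have hμ0 : μ ≠ 0 := by
    intro h0
    have h1 : LinearMap.det (cmp ρ g μ g) = μ ^ d := det_cmp_self ρ g μ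
    have h2 : μ ^ d = 0 := by
      rw [h0]
      exact zero_pow hd0
    rw [h2] at h1
    exact det_cmp_ne_zero ρ g μ hgz h1
  refine ⟨fun h => d * max (Real.log (entN v (ρ h).val)) (Real.log (entN v (ρ h⁻¹).val)),
    fun h => Real.log (v (LinearMap.det (cmp ρ g μ h))), ?_, ?_, ?_, ?_, ?_⟩
  · intro x
    simp only [inv_inv]
    rw [max_comm]
  · intro x y
    rw [← mul_add]
    refine mul_le_mul_of_nonneg_left ?_ (Nat.cast_nonneg d)
    have hlog : ∀ a b : G, Real.log (entN v (ρ (a * b)).val) ≤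
        Real.log (entN v (ρ a).val) + Real.log (entN v (ρ b).val) := by
      intro a b
      rw [← Real.log_mul (entN_pos v ρ a).ne' (entN_pos v ρ b).ne']
      refine Real.log_le_log (entN_pos v ρ _) ?_
      rw [map_mul, Units.val_mul]
      exact entN_mul v _ _
    apply max_le
    · exact (hlog x y).trans (add_le_add (le_max_left _ _) (le_max_left _ _))
    · rw [mul_inv_rev]
      have := hlog y⁻¹ x⁻¹
      have h1 := le_max_right (Real.log (entN v (ρ x).val)) (Real.log (entN v (ρ x⁻¹).val))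
      have h2 := le_max_right (Real.log (entN v (ρ y).val)) (Real.log (entN v (ρ y⁻¹).val))
      linarith
  · intro h hh k hk
    simp only
    rw [cmp_mul ρ g μ hh hk, map_mul, map_mul, Real.log_mul]
    · exact (v.pos (det_cmp_ne_zero ρ g μ hh)).ne'
    · exact (v.pos (det_cmp_ne_zero ρ g μ hk)).ne'
  · have key : ∀ k ∈ Subgroup.centralizer ({g} : Set G),
        Real.log (v (LinearMap.det (cmp ρ g μ k))) ≤ d * Real.log (entN v (ρ k).val) := by
      intro k hk
      rw [← Real.log_pow]
      exact Real.log_le_log (v.pos (det_cmp_ne_zero ρ g μ hk)) (det_cmp_le' v ρ g μ hk)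
    intro h hh
    rw [abs_le]
    have h1 := key h hh
    have h2 := key h⁻¹ (inv_mem hh)
    have h3 : Real.log (v (LinearMap.det (cmp ρ g μ h⁻¹))) =
        - Real.log (v (LinearMap.det (cmp ρ g μ h))) := by
      have h4 : v (LinearMap.det (cmp ρ g μ h)) * v (LinearMap.det (cmp ρ g μ h⁻¹)) = 1 := by
        rw [← v.map_mul, ← map_mul, ← cmp_mul ρ g μ hh (inv_mem hh), mul_inv_cancel, cmp_one,
          map_one, v.map_one]
      have h5 : v (LinearMap.det (cmp ρ g μ h⁻¹)) = (v (LinearMap.det (cmp ρ g μ h)))⁻¹ :=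
        (inv_eq_of_mul_eq_one_right h4).symm
      rw [h5, Real.log_inv]
    have hdn : (0 : ℝ) ≤ d := Nat.cast_nonneg d
    have h6 := mul_le_mul_of_nonneg_left
      (le_max_left (Real.log (entN v (ρ h).val)) (Real.log (entN v (ρ h⁻¹).val))) hdn
    have h7 := mul_le_mul_of_nonneg_left
      (le_max_right (Real.log (entN v (ρ h).val)) (Real.log (entN v (ρ h⁻¹).val))) hdn
    rw [h3] at h2
    constructor
    · linarith
    · linarith
  · simp only
    rw [det_cmp_self, map_pow, Real.log_pow]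
    refine mul_ne_zero (Nat.cast_ne_zero.2 hd0) ?_
    exact Real.log_ne_zero_of_pos_of_ne_one (v.pos hμ0) hv

end rep

end Vale.Agent.Lib.H15
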