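import Vale.Agent.Lib.H15.Ker

/-!
The trace at a conjugacy class on the ring of kernels which are right invariant under the
centralizer of `g`.
-/

namespace Vale.Agent.Lib.H15

open Filter Topology

set_option linter.unusedSectionVars false

variable {G : Type*} [Group G] {M : Type*} [NormedRing M] [NormedAlgebra ℂ M] [CompleteSpace M]

/-- the conjugates of `g` -/
abbrev Cl (g : G) : Type _ := {x : G // IsConj g x}

/-- a conjugating element -/
noncomputable def rep {g : G} (x : Cl g) : G := Classical.choose (isConj_iff.1 x.2)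

theorem rep_spec {g : G} (x : Cl g) : rep x * g * (rep x)⁻¹ = x.1 :=
  Classical.choose_spec (isConj_iff.1 x.2)

theorem mul_rep {g : G} (x : Cl g) : x.1 * rep x = rep x * g := by
  conv_lhs => rw [← rep_spec x]
  group

/-- the centralizer -/
abbrev Zc (g : G) : Subgroup G := Subgroup.centralizer {g}

theorem mem_Zc {g z : G} : z ∈ Zc g ↔ g * z = z * g := by
  rw [Subgroup.mem_centralizer_singleton_iff]
  exact eq_comm

theorem self_mem_Zc (g : G) : g ∈ Zc g := mem_Zc.2 rfl

theorem rel_mem_Zc {g : G} (x : Cl g) (d : G) (h : d * g * d⁻¹ = x.1) :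
    (rep x)⁻¹ * d ∈ Zc g := by
  rw [mem_Zc]
  have h1 := rep_spec x
  rw [← h1] at h
  have h2 : d * g = rep x * g * (rep x)⁻¹ * d := by rw [← h]; group
  calc g * ((rep x)⁻¹ * d) = (rep x)⁻¹ * (rep x * g * (rep x)⁻¹ * d) := by group
    _ = (rep x)⁻¹ * (d * g) := by rw [h2]
    _ = (rep x)⁻¹ * d * g := by group

/-- Invariance: the value of an invariant kernel at `(a d, b d)` only depends on the conjugate
`d g d⁻¹`. -/
theorem Ker.inv_rep {g : G} (K : Ker (Zc g) M) (x : Cl g) (d : G) (h : d * g * d⁻¹ = x.1)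
    (a b : G) : K.toFun (a * d) (b * d) = K.toFun (a * rep x) (b * rep x) := by
  have hz := rel_mem_Zc x d h
  have := K.inv' _ hz (a * rep x) (b * rep x)
  rw [← this]
  congr 1 <;> group

/-- The trace at the class of `g`. -/
noncomputable def Lam {g : G} (tr : M →L[ℂ] ℂ) (K : Ker (Zc g) M) : ℂ :=
  ∑' x : Cl g, tr (K.toFun (x.1 * rep x) (rep x))

theorem summable_Lam {g : G} (tr : M →L[ℂ] ℂ) (K : Ker (Zc g) M) :
    Summable (fun x : Cl g => tr (K.toFun (x.1 * rep x) (rep x))) := by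
  obtain ⟨m, hm⟩ := K.exists_maj
  have h1 : Summable (fun x : Cl g => ‖tr‖ * m x.1) :=
    (hm.1.comp_injective Subtype.val_injective).mul_left _
  refine Summable.of_norm_bounded h1 (fun x => ?_)
  refine (tr.le_opNorm _).trans (mul_le_mul_of_nonneg_left ?_ (norm_nonneg _))
  have := hm.2 (x.1 * rep x) (rep x)
  simpa using this

theorem Lam_add {g : G} (tr : M →L[ℂ] ℂ) (K L : Ker (Zc g) M) :
    Lam tr (K + L) = Lam tr K + Lam tr L := by
  rw [Lam, Lam, Lam, ← (summable_Lam tr K).tsum_add (summable_Lam tr L)]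
  apply tsum_congr
  intro x
  rw [Ker.add_fun, map_add]

theorem Lam_neg {g : G} (tr : M →L[ℂ] ℂ) (K : Ker (Zc g) M) :
    Lam tr (-K) = - Lam tr K := by
  rw [Lam, Lam, ← tsum_neg]
  apply tsum_congr
  intro x
  rw [Ker.neg_fun, map_neg]

theorem Lam_sub {g : G} (tr : M →L[ℂ] ℂ) (K L : Ker (Zc g) M) :
    Lam tr (K - L) = Lam tr K - Lam tr L := by
  rw [sub_eq_add_neg, Lam_add, Lam_neg, sub_eq_add_neg]

theorem norm_Lam_le {g : G} (tr : M →L[ℂ] ℂ) (K : Ker (Zc g) M) {r : ℝ} (h : K.Bd r) :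
    ‖Lam tr K‖ ≤ ‖tr‖ * r := by
  obtain ⟨m, hm, hr⟩ := h
  have h1 : Summable (fun x : Cl g => ‖tr‖ * m x.1) :=
    (hm.1.comp_injective Subtype.val_injective).mul_left _
  have h2 : ‖Lam tr K‖ ≤ ∑' x : Cl g, ‖tr‖ * m x.1 := by
    refine tsum_of_norm_bounded h1.hasSum (fun x => ?_)
    refine (tr.le_opNorm _).trans (mul_le_mul_of_nonneg_left ?_ (norm_nonneg _))
    have := hm.2 (x.1 * rep x) (rep x)
    simpa using this
  refine h2.trans ?_
  rw [tsum_mul_left]
  refine mul_le_mul_of_nonneg_left ?_ (norm_nonneg _)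
  refine le_trans ?_ hr
  exact Summable.tsum_le_tsum_of_inj (Subtype.val : Cl g → G) Subtype.val_injective
    (fun c _ => hm.nonneg c) (fun _ => le_rfl) (hm.1.comp_injective Subtype.val_injective) hm.1

/-- the flip on pairs -/
def flipC (g : G) : Cl g × G ≃ Cl g × G where
  toFun p := (⟨p.2 * p.1.1 * p.2⁻¹, p.1.2.trans (isConj_iff.2 ⟨p.2, rfl⟩)⟩, p.1.1 * p.2⁻¹)
  invFun p := (⟨p.2 * p.1.1 * p.2⁻¹, p.1.2.trans (isConj_iff.2 ⟨p.2, rfl⟩)⟩, p.1.1 * p.2⁻¹)
  left_inv p := by
    rcases p with ⟨⟨x, hx⟩, b⟩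
    simp only [Prod.mk.injEq, Subtype.mk.injEq]
    constructor <;> group
  right_inv p := by
    rcases p with ⟨⟨x, hx⟩, b⟩
    simp only [Prod.mk.injEq, Subtype.mk.injEq]
    constructor <;> group

theorem Lam_mul {g : G} (tr : M →L[ℂ] ℂ) (K L : Ker (Zc g) M) :
    Lam tr (K * L) = ∑' p : Cl g × G,
      tr (K.toFun (p.1.1 * rep p.1) (p.2 * rep p.1) * L.toFun (p.2 * rep p.1) (rep p.1)) := by
  obtain ⟨m, hm⟩ := K.exists_maj
  obtain ⟨n, hn⟩ := L.exists_maj
  have hS : Summable (fun p : Cl g × G =>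
      tr (K.toFun (p.1.1 * rep p.1) (p.2 * rep p.1) * L.toFun (p.2 * rep p.1) (rep p.1))) := by
    have h1 := (summable_prod_maj hm.1 hn.1 hm.nonneg hn.nonneg).mul_left ‖tr‖
    have hinj : Function.Injective (fun p : Cl g × G => ((p.1.1 * p.2⁻¹, p.2) : G × G)) := by
      rintro ⟨⟨x, hx⟩, b⟩ ⟨⟨y, hy⟩, c⟩ h
      simp only [Prod.mk.injEq] at h
      obtain ⟨h2, h3⟩ := h
      subst h3
      have h4 : x = y := mul_right_cancel h2
      subst h4
      rfl
    refine Summable.of_norm_bounded (h1.comp_injective hinj) (fun p => ?_)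
    simp only [Function.comp_apply]
    refine (tr.le_opNorm _).trans (mul_le_mul_of_nonneg_left ?_ (norm_nonneg _))
    refine (norm_mul_le _ _).trans (mul_le_mul ?_ ?_ (norm_nonneg _) (hm.nonneg _))
    · have := hm.2 (p.1.1 * rep p.1) (p.2 * rep p.1)
      have h5 : p.1.1 * rep p.1 * (p.2 * rep p.1)⁻¹ = p.1.1 * p.2⁻¹ := by group
      rwa [h5] at this
    · have := hn.2 (p.2 * rep p.1) (rep p.1)
      have h5 : p.2 * rep p.1 * (rep p.1)⁻¹ = p.2 := by group
      rwa [h5] at this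
  rw [hS.tsum_prod, Lam]
  apply tsum_congr
  intro x
  rw [Ker.mul_fun, ContinuousLinearMap.map_tsum _ (Ker.summable_mul_fun K L _ _)]
  rw [← (Equiv.mulRight (rep x)).tsum_eq]
  rfl

theorem Lam_comm {g : G} (tr : M →L[ℂ] ℂ) (htr : ∀ a b, tr (a * b) = tr (b * a))
    (K L : Ker (Zc g) M) : Lam tr (K * L) = Lam tr (L * K) := by
  rw [Lam_mul, Lam_mul, ← (flipC g).tsum_eq]
  apply tsum_congr
  rintro ⟨x, b⟩
  set y : Cl g := ⟨b * x.1 * b⁻¹, x.2.trans (isConj_iff.2 ⟨b, rfl⟩)⟩ with hy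
  have hflip : flipC g (x, b) = (y, x.1 * b⁻¹) := rfl
  rw [hflip]
  simp only
  rw [htr]
  have hd : (b * rep x) * g * (b * rep x)⁻¹ = y.1 := by
    rw [hy]
    simp only
    rw [← rep_spec x]
    group
  have e1 : K.toFun (y.1 * rep y) (x.1 * b⁻¹ * rep y) = K.toFun (b * rep x) (rep x) := by
    rw [← K.inv_rep y _ hd]
    have h1 : y.1 * (b * rep x) = (b * rep x) * g := by
      rw [hy]
      simp only
      rw [mul_assoc (b * x.1), inv_mul_cancel_left, mul_assoc, mul_rep, mul_assoc]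
    have h2 : x.1 * b⁻¹ * (b * rep x) = rep x * g := by
      rw [mul_assoc, inv_mul_cancel_left, mul_rep]
    rw [h1, h2, K.inv' g (self_mem_Zc g)]
  have e2 : L.toFun (x.1 * b⁻¹ * rep y) (rep y) = L.toFun (x.1 * rep x) (b * rep x) := by
    have := L.inv_rep y _ hd (x.1 * b⁻¹) 1
    rw [one_mul, one_mul] at this
    rw [← this]
    congr 1
    group
  rw [e1, e2]

/-- Two idempotent kernels whose difference has small mass have the same trace. -/
theorem Lam_eq_of_idem {g : G} (tr : M →L[ℂ] ℂ) (htr : ∀ a b, tr (a * b) = tr (b * a))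
    (P Q : Ker (Zc g) M) (hP : P * P = P) (hQ : Q * Q = Q) {r : ℝ} (hr : r < 1)
    (hD : (P - Q).Bd r) : Lam tr P = Lam tr Q := by
  obtain ⟨D, hDdef⟩ : ∃ D, D = P - Q := ⟨_, rfl⟩
  rw [← hDdef] at hD
  have hcP : Commute (D * D) P := by
    show D * D * P = P * (D * D)
    rw [hDdef]
    have h1 : (P - Q) * (P - Q) * P = P * P * P - P * Q * P - Q * (P * P) + Q * Q * P := by
      noncomm_ring
    have h2 : P * ((P - Q) * (P - Q)) = P * P * P - P * P * Q - P * Q * P + P * (Q * Q) := by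
      noncomm_ring
    rw [h1, h2]
    simp only [hP, hQ]
    noncomm_ring
  have hcQ : Commute (D * D) Q := by
    show D * D * Q = Q * (D * D)
    rw [hDdef]
    have h1 : (P - Q) * (P - Q) * Q = P * P * Q - P * (Q * Q) - Q * P * Q + Q * Q * Q := by
      noncomm_ring
    have h2 : Q * ((P - Q) * (P - Q)) = Q * (P * P) - Q * P * Q - Q * Q * P + Q * Q * Q := by
      noncomm_ring
    rw [h1, h2]
    simp only [hP, hQ]
    noncomm_ring
  have hstep : ∀ n : ℕ, Lam tr ((D * D) ^ n * D) = Lam tr ((D * D) ^ (n + 1) * D) := by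
    intro n
    have h3 : D * D * D = D - (P * Q * P - Q * P * Q) := by
      rw [hDdef]
      have h1 : (P - Q) * (P - Q) * (P - Q) = P * P * P - P * P * Q - P * Q * P + P * (Q * Q)
        - Q * (P * P) + Q * P * Q + Q * Q * P - Q * Q * Q := by noncomm_ring
      rw [h1]
      simp only [hP, hQ]
      noncomm_ring
    have h4 : (D * D) ^ (n + 1) * D = (D * D) ^ n * D
        - ((D * D) ^ n * (P * Q * P) - (D * D) ^ n * (Q * P * Q)) := by
      rw [pow_succ, mul_assoc, h3, mul_sub, mul_sub]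
    rw [h4, Lam_sub, Lam_sub]
    have h5 : Lam tr ((D * D) ^ n * (P * Q * P)) = Lam tr ((D * D) ^ n * (Q * P * Q)) := by
      have hcP' : (D * D) ^ n * P = P * (D * D) ^ n := (hcP.pow_left n).eq
      have hcQ' : (D * D) ^ n * Q = Q * (D * D) ^ n := (hcQ.pow_left n).eq
      calc Lam tr ((D * D) ^ n * (P * Q * P))
          = Lam tr ((D * D) ^ n * (P * (Q * Q) * P)) := by rw [hQ]
        _ = Lam tr (((D * D) ^ n * (P * Q)) * (Q * P)) := by simp only [mul_assoc]
        _ = Lam tr ((Q * P) * ((D * D) ^ n * (P * Q))) := Lam_comm tr htr _ _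
        _ = Lam tr ((D * D) ^ n * (Q * (P * P) * Q)) := by
            have : (Q * P) * ((D * D) ^ n * (P * Q)) = (D * D) ^ n * (Q * (P * P) * Q) := by
              calc (Q * P) * ((D * D) ^ n * (P * Q)) = Q * (P * (D * D) ^ n) * (P * Q) := by
                    simp only [mul_assoc]
                _ = Q * ((D * D) ^ n * P) * (P * Q) := by rw [hcP']
                _ = (Q * (D * D) ^ n) * P * (P * Q) := by simp only [mul_assoc]
                _ = ((D * D) ^ n * Q) * P * (P * Q) := by rw [hcQ']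
                _ = _ := by simp only [mul_assoc]
            rw [this]
        _ = _ := by rw [hP]
    rw [h5, sub_self, sub_zero]
  have hall : ∀ n : ℕ, Lam tr D = Lam tr ((D * D) ^ n * D) := by
    intro n
    induction n with
    | zero => rw [pow_zero, one_mul]
    | succ n ih => rw [ih, hstep]
  have hbd : ∀ n : ℕ, ((D * D) ^ n * D).Bd ((r * r) ^ n * r) := by
    intro n
    induction n with
    | zero => simpa using hD
    | succ n ih =>
      have h6 : (D * D) ^ (n + 1) * D = (D * D) * ((D * D) ^ n * D) := by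
        rw [pow_succ', mul_assoc]
      have h7 : (r * r) ^ (n + 1) * r = (r * r) * ((r * r) ^ n * r) := by
        rw [pow_succ', mul_assoc]
      rw [h6, h7]
      exact (hD.mul hD).mul ih
  have hr0 : 0 ≤ r := hD.nonneg
  have hlim : Tendsto (fun n : ℕ => ‖tr‖ * ((r * r) ^ n * r)) atTop (𝓝 0) := by
    have h8 : Tendsto (fun n : ℕ => (r * r) ^ n) atTop (𝓝 0) :=
      tendsto_pow_atTop_nhds_zero_of_lt_one (mul_nonneg hr0 hr0) (by nlinarith)
    have h9 := (h8.mul_const r).const_mul ‖tr‖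
    simpa using h9
  have hle : ‖Lam tr D‖ ≤ 0 := by
    refine ge_of_tendsto' hlim (fun n => ?_)
    rw [hall n]
    exact norm_Lam_le tr _ (hbd n)
  have h0 : Lam tr D = 0 := norm_le_zero_iff.1 hle
  rw [hDdef, Lam_sub] at h0
  exact sub_eq_zero.1 h0

end Vale.Agent.Lib.H15
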